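import Crest.Agent.R10.E.An5

/-! # Row 10, block E-an, step 6: finite-dimensional normed models, quotients, the universal associator -/

set_option autoImplicit false

noncomputable section
namespace Crest.Agent.R10.An

theorem exists_model {A : Type} [Ring A] [Algebra ℝ A] {N : ℕ} (F : Filt ℝ A N) (s : Set A) (hs : s.Finite)
    (hJ : ∀ x ∈ s, x ∈ F.J 1) :
    ∃ (B : Type) (_ : NormedRing B) (_ : NormedAlgebra ℝ B) (_ : FiniteDimensional ℝ B) (F' : Filt ℝ B N)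
      (φ : B →ₐ[ℝ] A), Function.Injective φ ∧ ∀ x ∈ s, ∃ w ∈ F'.J 1, φ w = x := by
  have hfin : (Submonoid.closure s : Set A).Finite := by
    have := hs.to_subtype
    refine (((List.finite_length_le s N).image fun l => (l.map Subtype.val).prod).insert 0).subset fun x hx => ?_
    obtain ⟨l, hl, rfl⟩ := Submonoid.exists_list_of_mem_closure hx
    by_cases h : l.length ≤ N
    · exact Or.inr ⟨l.attachWith _ hl, by simpa using h, by simp⟩
    · have key : ∀ l : List A, (∀ y ∈ l, y ∈ s) → l.prod ∈ F.J l.length := fun l => by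
        induction l with
        | nil => exact fun _ => mem0 F _
        | cons y l ih => exact fun h => mulL F (hJ _ (h y (by simp))) (ih fun z hz => h z (by simp [hz]))
      exact Or.inl (eq_zero_of_mem F (F.anti (by omega) (key l hl)))
  let S := Algebra.adjoin ℝ s
  have hS : FiniteDimensional ℝ S := by
    change FiniteDimensional ℝ S.toSubmodule
    rw [Algebra.adjoin_eq_span]
    exact Module.Finite.span_of_finite ℝ hfin
  let := Matrix.linftyOpNormedRing (n := Fin (Module.finrank ℝ S)) (α := ℝ)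
  let := Matrix.linftyOpNormedAlgebra (n := Fin (Module.finrank ℝ S)) (α := ℝ) (R := ℝ)
  let ψ := Algebra.leftMulMatrix (Module.finBasis ℝ S)
  refine ⟨S, NormedRing.induced S _ ψ (Algebra.leftMulMatrix_injective _), NormedAlgebra.induced ℝ S _ ψ, hS,
    ⟨fun k => (F.J k).comap S.val.toLinearMap, by simp [F.top], fun i j h => Submodule.comap_mono (F.anti h),
      fun ha hb => F.mul ha hb, ?_⟩, S.val, Subtype.val_injective,
    fun x hx => ⟨⟨x, Algebra.subset_adjoin hx⟩, hJ x hx, rfl⟩⟩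
  rw [F.bot, Submodule.comap_bot]
  exact LinearMap.ker_eq_bot.2 Subtype.val_injective

theorem exists_quot {C : Type} [Ring C] [Algebra ℝ C] (J : ℕ → Submodule ℝ C) (top : J 0 = ⊤) (anti : Antitone J)
    (mul : ∀ {i j : ℕ} {a b : C}, a ∈ J i → b ∈ J j → a * b ∈ J (i + j)) {n N : ℕ} (hn : n ≤ N + 1) :
    ∃ (Q : Type) (_ : Ring Q) (_ : Algebra ℝ Q) (F : Filt ℝ Q N) (π : C →ₐ[ℝ] Q), Function.Surjective π ∧
      (∀ x, π x = 0 → x ∈ J n) ∧ (∀ k, ∀ x ∈ J k, π x ∈ F.J k) ∧ (∀ x ∈ J n, π x = 0) ∧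
      ∀ (A : Type) [Ring A] [Algebra ℝ A] (f : C →ₐ[ℝ] A), (∀ x ∈ J n, f x = 0) →
        ∃ g : Q →ₐ[ℝ] A, ∀ x, g (π x) = f x := by
  have h0 : ∀ x, x ∈ J 0 := fun x => by rw [top]; trivial
  let I : Ideal C := ⟨(J n).toAddSubmonoid, fun c x hx => by simpa using mul (h0 c) hx⟩
  have : I.IsTwoSided := ⟨fun c hx => mul hx (h0 c)⟩
  let π := Ideal.Quotient.mkₐ ℝ I
  have hπ : Function.Surjective π := Ideal.Quotient.mkₐ_surjective ℝ I
  have hz : ∀ x, π x = 0 ↔ x ∈ J n := fun x => Ideal.Quotient.eq_zero_iff_mem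
  refine ⟨C ⧸ I, inferInstance, inferInstance, ⟨fun k => (J k).map π.toLinearMap, ?_,
    fun i j h => Submodule.map_mono (anti h), ?_, ?_⟩, π, hπ, fun x => (hz x).1, fun k x hx => ⟨x, hx, rfl⟩,
    fun x => (hz x).2, fun A _ _ f hf => ⟨Ideal.Quotient.liftₐ I f hf, fun x => rfl⟩⟩
  · rw [top, Submodule.map_top]; exact LinearMap.range_eq_top.2 hπ
  · rintro i j _ _ ⟨a, ha, rfl⟩ ⟨b, hb, rfl⟩
    exact ⟨a * b, mul ha hb, map_mul π a b⟩
  · rw [eq_bot_iff]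
    rintro _ ⟨a, ha, rfl⟩
    exact (hz a).2 (anti hn ha)

theorem gen_mem (i : Fin 2) : FreeAlgebra.ι ℝ i ∈ Ge ℝ w1 1 := Hom_le_Ge w1 1 (ι_mem_Hom w1 i)

/-- `Φ` evaluates to `Phi` in every normed model -/
def Univ (N : ℕ) (Φ : T ℝ) : Prop :=
  ∀ (A : Type) [NormedRing A] [NormedAlgebra ℝ A] [FiniteDimensional ℝ A] (F : Filt ℝ A N) (a b : A),
    a ∈ F.J 1 → b ∈ F.J 1 → ev ℝ a b Φ = Phi a b

theorem exists_univ (N : ℕ) : ∃ Φ, Univ N Φ := by
  obtain ⟨Q, _, _, F, π, hπ, -, hJ, -, lift⟩ := exists_quot (Ge ℝ (w1 (I := Fin 2))) (Ge_zero _) (Ge_anti _)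
    (mul_mem_Ge _) (le_refl (N + 1))
  obtain ⟨B, _, _, _, F', φ, -, h⟩ := exists_model F {π (xx ℝ), π (yy ℝ)} (Set.toFinite _) (by
    rintro _ (rfl | rfl) <;> exact hJ _ _ (gen_mem _))
  obtain ⟨x, hx, ex⟩ := h (π (xx ℝ)) (by simp)
  obtain ⟨y, hy, ey⟩ := h (π (yy ℝ)) (by simp)
  obtain ⟨Φ, hΦ⟩ := hπ (φ (Phi x y))
  refine ⟨Φ, fun A _ _ _ G a b ha hb => ?_⟩
  obtain ⟨ψ, hψ⟩ := lift A (ev ℝ a b) fun f hf => eq_zero_of_mem G (map_mem_of_Ge w1 _ G.J (mem0 G _) G.anti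
    (fun _ _ _ _ => G.mul) (by simpa [Fin.forall_fin_two] using ⟨ha, hb⟩) hf)
  have e1 : (ψ.comp φ) x = a := by rw [AlgHom.comp_apply, ex, hψ, ev_xx]
  have e2 : (ψ.comp φ) y = b := by rw [AlgHom.comp_apply, ey, hψ, ev_yy]
  have := map_phi F' G (ψ.comp φ) hx hy (e1 ▸ ha) (e2 ▸ hb)
  rwa [e1, e2, AlgHom.comp_apply, ← hΦ, hψ] at this

variable {N : ℕ} {Φ : T ℝ} {A : Type} [Ring A] [Algebra ℝ A] (F : Filt ℝ A N)

theorem comm_of_inj {B : Type} [Ring B] [Algebra ℝ B] {φ : B →ₐ[ℝ] A} (hφ : Function.Injective φ) {x y : B}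
    (h : Commute (φ x) (φ y)) : Commute x y := hφ (by simpa using h.eq)

theorem Univ.grp (h : Univ N Φ) (a b a' b' : A) (ha : a ∈ F.J 1) (hb : b ∈ F.J 1) (ha' : a' ∈ F.J 1)
    (hb' : b' ∈ F.J 1) (h1 : Commute a a') (h2 : Commute a b') (h3 : Commute b a') (h4 : Commute b b') :
    ev ℝ (a + a') (b + b') Φ = ev ℝ a b Φ * ev ℝ a' b' Φ := by
  obtain ⟨B, _, _, _, G, φ, hφ, hs⟩ := exists_model F {a, b, a', b'} (Set.toFinite _) (by
    rintro _ (rfl | rfl | rfl | rfl) <;> assumption)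
  clear ha hb ha' hb'
  obtain ⟨a, ha, rfl⟩ := hs a (by simp)
  obtain ⟨b, hb, rfl⟩ := hs b (by simp)
  obtain ⟨a', ha', rfl⟩ := hs a' (by simp)
  obtain ⟨b', hb', rfl⟩ := hs b' (by simp)
  simp only [← map_add, ← map_ev, ← map_mul]
  rw [h B G _ _ (add_mem ha ha') (add_mem hb hb'), h B G _ _ ha hb, h B G _ _ ha' hb',
    phi_add G ha hb ha' hb' (comm_of_inj hφ h1) (comm_of_inj hφ h2) (comm_of_inj hφ h3) (comm_of_inj hφ h4)]

theorem Univ.pent (h : Univ N Φ) (a b c d e g : A) (ha : a ∈ F.J 1) (hb : b ∈ F.J 1) (hc : c ∈ F.J 1)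
    (hd : d ∈ F.J 1) (he : e ∈ F.J 1) (hg : g ∈ F.J 1) (br : Br a b c d e g) :
    ev ℝ a (d + e) Φ * ev ℝ (b + d) g Φ = ev ℝ d g Φ * ev ℝ (a + b) (e + g) Φ * ev ℝ a d Φ := by
  obtain ⟨B, _, _, _, G, φ, hφ, hs⟩ := exists_model F {a, b, c, d, e, g} (Set.toFinite _) (by
    rintro _ (rfl | rfl | rfl | rfl | rfl | rfl) <;> assumption)
  clear ha hb hc hd he hg
  obtain ⟨a, ha, rfl⟩ := hs a (by simp)
  obtain ⟨b, hb, rfl⟩ := hs b (by simp)
  obtain ⟨c, hc, rfl⟩ := hs c (by simp)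
  obtain ⟨d, hd, rfl⟩ := hs d (by simp)
  obtain ⟨e, he, rfl⟩ := hs e (by simp)
  obtain ⟨g, hg, rfl⟩ := hs g (by simp)
  obtain ⟨h1, h2, h3, h4, h5, h6, h7, h8, h9, h10, h11, h12, h13, h14, h15⟩ := br
  simp only [← map_add] at h4 h5 h6 h7 h8 h9 h10 h11 h12 h13 h14 h15
  have k := @comm_of_inj A _ _ B _ _ φ hφ
  simp only [← map_add, ← map_ev, ← map_mul]
  rw [h B G _ _ ha (add_mem hd he), h B G _ _ (add_mem hb hd) hg, h B G _ _ hd hg,
    h B G _ _ (add_mem ha hb) (add_mem he hg), h B G _ _ ha hd, phi_pent G ha hb hd he hg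
    ⟨k h1, k h2, k h3, k h4, k h5, k h6, k h7, k h8, k h9, k h10, k h11, k h12, k h13, k h14, k h15⟩]

theorem Univ.left (h : Univ N Φ) {a : A} (ha : a ∈ F.J 1) : ev ℝ a 0 Φ = 1 ∧ ev ℝ 0 a Φ = 1 := by
  obtain ⟨B, _, _, _, G, φ, -, hs⟩ := exists_model F {a} (Set.toFinite _) (by rintro _ rfl; exact ha)
  clear ha
  obtain ⟨a, ha, rfl⟩ := hs a rfl
  rw [← map_zero φ, ← map_ev, ← map_ev, h B G _ _ ha (zero_mem _), h B G _ _ (zero_mem _) ha, phi_left G ha,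
    phi_right G ha, map_one]
  exact ⟨rfl, rfl⟩

theorem Univ.depth (h : Univ N Φ) {a b : A} (ha : a ∈ F.J 1) (hb : b ∈ F.J 1) (hba : b * a = 0) (hbb : b * b = 0) :
    ev ℝ a b Φ = 1 - ∑ n ∈ Finset.range N, Li (n + 2) 1 • (a ^ (n + 1) * b) := by
  obtain ⟨B, _, _, _, G, φ, hφ, hs⟩ := exists_model F {a, b} (Set.toFinite _) (by rintro _ (rfl | rfl) <;> assumption)
  clear ha hb
  obtain ⟨a, ha, rfl⟩ := hs a (by simp)
  obtain ⟨b, hb, rfl⟩ := hs b (by simp)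
  rw [← map_ev, h B G _ _ ha hb, phi_depth G ha hb (hφ (by simpa using hba)) (hφ (by simpa using hbb))]
  simp

theorem Univ.one (h : Univ N Φ) (hN : 2 ≤ N) : Φ - 1 ∈ Ge ℝ w1 2 := by
  obtain ⟨Q, _, _, F, π, -, hz, hJ, hz', -⟩ := exists_quot (Ge ℝ (w1 (I := Fin 2))) (Ge_zero _) (Ge_anti _)
    (mul_mem_Ge _) (show 2 ≤ N + 1 by omega)
  have hx : π (xx ℝ) ∈ F.J 1 := hJ _ _ (gen_mem _)
  have hy : π (yy ℝ) ∈ F.J 1 := hJ _ _ (gen_mem _)
  have hc : Commute (π (xx ℝ)) (π (yy ℝ)) := by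
    have k : ∀ i j : Fin 2, π (FreeAlgebra.ι ℝ i) * π (FreeAlgebra.ι ℝ j) = 0 := fun i j => by
      rw [← map_mul]; exact hz' _ (mul_mem_Ge (m := 1) (n := 1) w1 (gen_mem i) (gen_mem j))
    exact (k 0 1).trans (k 1 0).symm
  have := h.grp F _ 0 0 _ hx (zero_mem _) (zero_mem _) hy (by simp) hc (by simp) (by simp)
  rw [add_zero, zero_add, (h.left F hx).1, (h.left F hy).2, mul_one, ← map_ev, ev_self] at this
  exact hz _ (by rw [map_sub, this, map_one, sub_self])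

open Polynomial in
theorem Univ.coef (h : Univ N Φ) {n : ℕ} (hn : n + 2 ≤ N) {a b : A} (hba : b * a = 0) (hbb : b * b = 0) :
    ev ℝ a b (cmp ℝ w1 (n + 2) Φ) = -Li (n + 2) 1 • (a ^ (n + 1) * b) := by
  let J : ℕ → Submodule ℝ A[X] := fun k =>
    { carrier := {p | ∀ i < k, p.coeff i = 0}
      add_mem' := fun hp hq i hi => by rw [coeff_add, hp i hi, hq i hi, add_zero]
      zero_mem' := fun _ _ => rfl
      smul_mem' := fun c p hp i hi => by rw [coeff_smul, hp i hi, smul_zero] }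
  obtain ⟨Q, _, _, F, π, -, hz, hJ, -, -⟩ := exists_quot J (eq_top_iff.2 fun _ _ _ hi => absurd hi (Nat.not_lt_zero _))
    (fun i j hij p hp k hk => hp k (hk.trans_le hij)) (fun {i j p q} hp hq k hk => by
      rw [coeff_mul]
      refine Finset.sum_eq_zero fun c hc => ?_
      rw [Finset.HasAntidiagonal.mem_antidiagonal] at hc
      by_cases h1 : c.1 < i
      · rw [hp _ h1, zero_mul]
      · rw [hq _ (by omega), mul_zero]) (le_refl (N + 1))
  have hm : ∀ c : A, π (monomial 1 c) ∈ F.J 1 := fun c => hJ _ _ fun i hi => by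
    rw [coeff_monomial, if_neg hi.ne']
  have e := h.depth F (hm a) (hm b) (by rw [← map_mul, monomial_mul_monomial, hba]; simp)
    (by rw [← map_mul, monomial_mul_monomial, hbb]; simp)
  have e2 := hz (ev ℝ (monomial 1 a) (monomial 1 b) Φ - (1 - ∑ n ∈ Finset.range N, Li (n + 2) 1 •
    (monomial 1 a ^ (n + 1) * monomial 1 b))) (by
      simp only [map_sub, map_ev, e, map_one, map_sum, map_smul, map_mul, map_pow, sub_self]) (n + 2) (by omega)
  rwa [coeff_sub, coeff_ev_monomial, sub_eq_zero, coeff_sub, coeff_one, if_neg (by omega), finsetSum_coeff,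
    Finset.sum_eq_single n (fun m _ hm => by
      rw [monomial_pow, monomial_mul_monomial, coeff_smul, coeff_monomial, if_neg (by omega), smul_zero])
      (fun hn => absurd (Finset.mem_range.2 (by omega)) hn), monomial_pow, monomial_mul_monomial, coeff_smul,
    coeff_monomial, if_pos (by omega), zero_sub, ← neg_smul] at e2

theorem Univ.cc (h : Univ N Φ) {n : ℕ} (hn : n + 2 ≤ N) : cc ℝ (cmp ℝ w1 (n + 2) Φ) = -Li (n + 2) 1 := by
  have hab : ∀ k, (!![1, 0; 0, 0] : Matrix (Fin 2) (Fin 2) ℝ) ^ k * !![0, 1; 0, 0] = !![0, 1; 0, 0] := fun k => by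
    induction k with
    | zero => simp
    | succ k ih => rw [pow_succ', mul_assoc, ih]; ext i j; fin_cases i <;> fin_cases j <;> simp
  change ev ℝ (!![1, 0; 0, 0] : Matrix (Fin 2) (Fin 2) ℝ) !![0, 1; 0, 0] _ 0 1 = _
  rw [h.coef hn (by ext i j; fin_cases i <;> fin_cases j <;> simp) (by ext i j; fin_cases i <;> fin_cases j <;> simp),
    hab]
  simp

end Crest.Agent.R10.An
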