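import Crest.Agent.R10.Rep
import Crest.Agent.R10.E.An6

/-! # Row 10, block E-an: the truncated KZ associator (analysis).  See `notes10/R10.md`, §E-an. -/

noncomputable section
namespace Crest.Agent.R10

/-- the KZ associator modulo weight `> N`; `cc (cmp n Φ) = -ζ(n)`. -/
theorem exists_assoc (N : ℕ) (hN : 2 ≤ N) :
    ∃ Φ : T ℝ, Assoc ℝ N Φ ∧ ∀ n, 2 ≤ n → n ≤ N → cc ℝ (cmp ℝ w1 n Φ) ≠ 0 := by
  obtain ⟨Φ, h⟩ := An.exists_univ N
  refine ⟨Φ, ⟨h.one hN, fun A _ _ F => h.grp F, fun A _ _ F => h.pent F⟩, fun n h2 hn => ?_⟩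
  obtain ⟨n, rfl⟩ := Nat.exists_eq_add_of_le' h2
  rw [h.cc hn]
  exact neg_ne_zero.2 (An.Li_pos n).ne'

end Crest.Agent.R10
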