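import Crest.Agent.R10.C2
import Crest.Agent.R10.E.An

/-! # Row 10, block E-alg: from associators to an element of `grt` in each odd weight. -/

noncomputable section
namespace Crest.Agent.R10
open FreeAlgebra (ι)

variable {K : Type} [Field K] [CharZero K]

/-- polynomials vanishing to order `k`. -/
def eaP (K : Type) [Field K] (A : Type) [Ring A] [Algebra K A] (k : ℕ) :
    Submodule K (Polynomial A) where
  carrier := {p | ∀ i < k, p.coeff i = 0}
  add_mem' := fun hp hq i hi => by rw [Polynomial.coeff_add, hp i hi, hq i hi, add_zero]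
  zero_mem' := fun _ _ => rfl
  smul_mem' := fun c p hp i hi => by rw [Polynomial.coeff_smul, hp i hi, smul_zero]

omit [CharZero K] in
theorem eaP_mul {A : Type} [Ring A] [Algebra K A] {i j : ℕ} {p q : Polynomial A}
    (hp : p ∈ eaP K A i) (hq : q ∈ eaP K A j) : p * q ∈ eaP K A (i + j) := by
  intro k hk
  rw [Polynomial.coeff_mul]
  refine Finset.sum_eq_zero fun c hc => ?_
  have := Finset.HasAntidiagonal.mem_antidiagonal.1 hc
  by_cases h : c.1 < i
  · rw [hp _ h, zero_mul]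
  · rw [hq _ (by omega), mul_zero]

/-- truncated polynomials: for any algebra `A`, an algebra `B` with an `N`-nilpotent filtration and
a map `π : Polynomial A → B` killing exactly the multiples of `X^(N+1)`.
(`B = Polynomial A ⧸ I`, `I` the two-sided ideal `{p | ∀ i ≤ N, coeff p i = 0}`,
`J k = map π {p | ∀ i < k, coeff p i = 0}`.) -/
theorem exists_trunc (A : Type) [Ring A] [Algebra K A] (N : ℕ) :
    ∃ (B : Type) (_ : Ring B) (_ : Algebra K B) (F : Filt K B N) (π : Polynomial A →ₐ[K] B),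
      (∀ a : A, π (Polynomial.monomial 1 a) ∈ F.J 1) ∧
      ∀ p, π p = 0 ↔ ∀ i ≤ N, p.coeff i = 0 := by
  let I : Ideal (Polynomial A) :=
    { carrier := eaP K A (N + 1)
      add_mem' := add_mem
      zero_mem' := zero_mem _
      smul_mem' := fun c p hp => by
        simpa using eaP_mul (K := K) (i := 0) (p := c) (fun _ h => absurd h (by omega)) hp }
  have : I.IsTwoSided := ⟨fun {p} c hp =>
    eaP_mul (K := K) (j := 0) (q := c) hp (fun _ h => absurd h (by omega))⟩
  have h0 : ∀ p, Ideal.Quotient.mkₐ K I p = 0 ↔ p ∈ eaP K A (N + 1) := fun p =>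
    Ideal.Quotient.eq_zero_iff_mem
  refine ⟨Polynomial A ⧸ I, inferInstance, inferInstance,
    ⟨fun k => (eaP K A k).map (Ideal.Quotient.mkₐ K I).toLinearMap, ?_, ?_, ?_, ?_⟩,
    Ideal.Quotient.mkₐ K I, fun a => ⟨_, ?_, rfl⟩, fun p => ?_⟩
  · rw [eq_top_iff]
    intro b _
    obtain ⟨p, rfl⟩ := Ideal.Quotient.mkₐ_surjective K I b
    exact ⟨p, fun _ h => absurd h (by omega), rfl⟩
  · exact fun i j h => Submodule.map_mono fun p hp k hk => hp k (hk.trans_le h)
  · rintro i j _ _ ⟨p, hp, rfl⟩ ⟨q, hq, rfl⟩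
    exact ⟨p * q, eaP_mul hp hq, map_mul (Ideal.Quotient.mkₐ K I) p q⟩
  · rw [eq_bot_iff]
    rintro _ ⟨p, hp, rfl⟩
    exact (h0 p).2 hp
  · intro i hi
    rw [Polynomial.coeff_monomial, if_neg (by omega)]
  · exact (h0 p).trans ⟨fun h i hi => h i (by omega), fun h i hi => h i (by omega)⟩

theorem ea_br_neg {A : Type} [Ring A] {a b c d e g : A} (h : Br a b c d e g) :
    Br (-a) (-b) (-c) (-d) (-e) (-g) := by
  have k : ∀ {u x y z : A}, Commute u (x + y + z) → Commute (-u) (-x + -y + -z) := fun h => by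
    rw [← neg_add, ← neg_add]; exact h.neg_left.neg_right
  exact ⟨h.ag.neg_left.neg_right, h.be.neg_left.neg_right, h.cd.neg_left.neg_right, k h.a3, k h.b3,
    k h.d3, k h.a2, k h.c2, k h.e2, k h.b1, k h.c1, k h.g1, k h.d0, k h.e0, k h.g0⟩

theorem Assoc.neg {N : ℕ} {Φ : T K} (h : Assoc K N Φ) : Assoc K N (ev K (-xx K) (-yy K) Φ) := by
  refine ⟨?_, fun A _ _ F a b a' b' ha hb ha' hb' h1 h2 h3 h4 => ?_,
    fun A _ _ F a b c d e g ha hb hc hd he hg hB => ?_⟩
  · rw [← map_one (ev K (-xx K) (-yy K)), ← map_sub]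
    refine map_mem_of_Ge w1 _ (Ge K w1) (by rw [Ge_zero]; trivial) (Ge_anti w1)
      (fun _ _ _ _ => mul_mem_Ge w1) (fun i => ?_) h.one
    have := neg_mem (Hom_le_Ge w1 _ (ι_mem_Hom (K := K) w1 i))
    fin_cases i <;> simpa [xx, yy] using this
  · simp only [map_ev, map_neg, ev_xx, ev_yy, neg_add]
    exact h.grp A F _ _ _ _ (neg_mem ha) (neg_mem hb) (neg_mem ha') (neg_mem hb')
      h1.neg_left.neg_right h2.neg_left.neg_right h3.neg_left.neg_right h4.neg_left.neg_right
  · simp only [map_ev, map_neg, ev_xx, ev_yy, neg_add]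
    exact h.pent A F _ _ _ _ _ _ (neg_mem ha) (neg_mem hb) (neg_mem hc) (neg_mem hd) (neg_mem he)
      (neg_mem hg) (ea_br_neg hB)

theorem cmp_ev_neg (Φ : T K) (n : ℕ) :
    cmp K w1 n (ev K (-xx K) (-yy K) Φ) = (-1 : K) ^ n • cmp K w1 n Φ := by
  have h := ev_smul_of_Hom (cmp_mem_Hom w1 n Φ) (-1 : K) (xx K) (yy K)
  rw [ev_self, neg_one_smul, neg_one_smul] at h
  rw [← h, ← coeff_ev_monomial, cmp_apply, map_ev, map_neg, map_neg, map_neg, map_neg]
  simp [theta, xx, yy]

/-- `p, q = 1 + …` and `p - q = u X^m + …`. -/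
def eaD {A : Type} [Ring A] (m : ℕ) (p q : Polynomial A) (u : A) : Prop :=
  p.coeff 0 = 1 ∧ q.coeff 0 = 1 ∧ (∀ i < m, (p - q).coeff i = 0) ∧ (p - q).coeff m = u

theorem eaD.mul {A : Type} [Ring A] {m : ℕ} {p q p' q' : Polynomial A} {u u' : A}
    (h : eaD m p q u) (h' : eaD m p' q' u') : eaD m (p * p') (q * q') (u + u') := by
  have e : p * p' - q * q' = (p - q) * p' + q * (p' - q') := by noncomm_ring
  have h1 : ∀ i ≤ m, ((p - q) * p').coeff i = (p - q).coeff i := fun i hi => by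
    rw [Polynomial.coeff_mul, Finset.sum_eq_single (i, 0), h'.1, mul_one]
    · rintro ⟨j, k⟩ hc hne
      have : j + k = i := Finset.HasAntidiagonal.mem_antidiagonal.1 hc
      rw [h.2.2.1 j (by by_contra hj; exact hne (Prod.ext (by simp; omega) (by simp; omega))),
        zero_mul]
    · simp
  have h2 : ∀ i ≤ m, (q * (p' - q')).coeff i = (p' - q').coeff i := fun i hi => by
    rw [Polynomial.coeff_mul, Finset.sum_eq_single (0, i), h.2.1, one_mul]
    · rintro ⟨j, k⟩ hc hne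
      have : j + k = i := Finset.HasAntidiagonal.mem_antidiagonal.1 hc
      rw [h'.2.2.1 k (by by_contra hj; exact hne (Prod.ext (by simp; omega) (by simp; omega))),
        mul_zero]
    · simp
  refine ⟨by rw [Polynomial.mul_coeff_zero, h.1, h'.1, mul_one],
    by rw [Polynomial.mul_coeff_zero, h.2.1, h'.2.1, mul_one], fun i hi => ?_, ?_⟩
  · rw [e, Polynomial.coeff_add, h1 i hi.le, h2 i hi.le, h.2.2.1 i hi, h'.2.2.1 i hi, add_zero]
  · rw [e, Polynomial.coeff_add, h1 m le_rfl, h2 m le_rfl, h.2.2.2, h'.2.2.2]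

theorem eaD.eq {A : Type} [Ring A] {m : ℕ} {p q p' q' : Polynomial A} {u u' : A}
    (h : eaD m p q u) (h' : eaD m p' q' u') (h1 : (p - p').coeff m = 0)
    (h2 : (q - q').coeff m = 0) : u = u' := by
  rw [← h.2.2.2, ← h'.2.2.2]
  simp only [Polynomial.coeff_sub, sub_eq_zero] at *
  rw [h1, h2]

omit [CharZero K] in
theorem ea_ev {A : Type} [Ring A] [Algebra K A] {m : ℕ} {Φ Ψ : T K} (h : Φ - 1 ∈ Ge K w1 2)
    (h' : Ψ - 1 ∈ Ge K w1 2) (hd : Φ - Ψ ∈ Ge K w1 m) (a b : A) :
    eaD m (ev K (Polynomial.monomial 1 a) (Polynomial.monomial 1 b) Φ)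
      (ev K (Polynomial.monomial 1 a) (Polynomial.monomial 1 b) Ψ)
      (ev K a b (cmp K w1 m (Φ - Ψ))) := by
  have k : ∀ {Φ : T K}, Φ - 1 ∈ Ge K w1 2 →
      (ev K (Polynomial.monomial 1 a) (Polynomial.monomial 1 b) Φ).coeff 0 = 1 := fun h => by
    have := (mem_Ge w1).1 h 0 two_pos
    rw [map_sub, cmp_one, if_pos rfl, sub_eq_zero] at this
    rw [coeff_ev_monomial, this, map_one]
  refine ⟨k h, k h', fun i hi => ?_, ?_⟩
  · rw [← map_sub, coeff_ev_monomial, (mem_Ge w1).1 hd i hi, map_zero]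
  · rw [← map_sub, coeff_ev_monomial]

theorem ea_comm {A B : Type} [Ring A] [Algebra K A] [Ring B] [Algebra K B]
    (π : Polynomial A →ₐ[K] B) {a b : A} (h : Commute a b) :
    Commute (π (Polynomial.monomial 1 a)) (π (Polynomial.monomial 1 b)) := by
  refine Commute.map ?_ π
  rw [Commute, SemiconjBy, Polynomial.monomial_mul_monomial, Polynomial.monomial_mul_monomial, h.eq]

/-- in weight 2 nothing to do; in general the first difference of two associators is primitive
(`exists_trunc`, `coeff_ev_monomial`, `Polynomial.coeff_mul`: all mixed terms agree), hence Lie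
(`friedrichs`), and satisfies the linear pentagon, hence lies in `Grt` (`furusho`). -/
theorem Assoc.diff_grt {N m : ℕ} {Φ Ψ : T K} (h : Assoc K N Φ) (h' : Assoc K N Ψ) (hm : 3 ≤ m)
    (hmN : m ≤ N) (hd : Φ - Ψ ∈ Ge K w1 m) : Grt K m (cmp K w1 m (Φ - Ψ)) := by
  refine furusho (friedrichs (by omega) (cmp_mem_Hom w1 m _)
    fun A _ _ a b a' b' h1 h2 h3 h4 => ?_) hm fun A _ _ a b c d e g hB => ?_
  · obtain ⟨B, _, _, F, π, hπ, h0⟩ := exists_trunc (K := K) A N
    have D := ea_ev (A := A) h.one h'.one hd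
    have k : ∀ {Φ : T K}, Assoc K N Φ → (ev K (Polynomial.monomial 1 (a + a'))
        (Polynomial.monomial 1 (b + b')) Φ - ev K (Polynomial.monomial 1 a)
        (Polynomial.monomial 1 b) Φ * ev K (Polynomial.monomial 1 a')
        (Polynomial.monomial 1 b') Φ).coeff m = 0 := fun h => (h0 _).1 (by
      simp only [map_sub, map_mul, map_ev, map_add, sub_eq_zero]
      exact h.grp B F _ _ _ _ (hπ _) (hπ _) (hπ _) (hπ _) (ea_comm π h1) (ea_comm π h2)
        (ea_comm π h3) (ea_comm π h4)) m hmN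
    exact (D _ _).eq ((D _ _).mul (D _ _)) (k h) (k h')
  · obtain ⟨B, _, _, F, π, hπ, h0⟩ := exists_trunc (K := K) A N
    have D := ea_ev (A := A) h.one h'.one hd
    have c3 : ∀ {u x y z : A}, Commute u (x + y + z) → Commute (π (Polynomial.monomial 1 u))
        (π (Polynomial.monomial 1 x) + π (Polynomial.monomial 1 y) +
          π (Polynomial.monomial 1 z)) := fun h => by simpa only [map_add] using ea_comm π h
    have k : ∀ {Φ : T K}, Assoc K N Φ → (ev K (Polynomial.monomial 1 a)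
        (Polynomial.monomial 1 (d + e)) Φ * ev K (Polynomial.monomial 1 (b + d))
        (Polynomial.monomial 1 g) Φ - ev K (Polynomial.monomial 1 d)
        (Polynomial.monomial 1 g) Φ * ev K (Polynomial.monomial 1 (a + b))
        (Polynomial.monomial 1 (e + g)) Φ * ev K (Polynomial.monomial 1 a)
        (Polynomial.monomial 1 d) Φ).coeff m = 0 := fun h => (h0 _).1 (by
      simp only [map_sub, map_mul, map_ev, map_add, sub_eq_zero]
      exact h.pent B F _ _ _ _ _ _ (hπ _) (hπ _) (hπ c) (hπ _) (hπ _) (hπ _)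
        ⟨ea_comm π hB.ag, ea_comm π hB.be, ea_comm π hB.cd, c3 hB.a3, c3 hB.b3, c3 hB.d3, c3 hB.a2,
          c3 hB.c2, c3 hB.e2, c3 hB.b1, c3 hB.c1, c3 hB.g1, c3 hB.d0, c3 hB.e0, c3 hB.g0⟩) m hmN
    have := ((D _ _).mul (D _ _)).eq (((D _ _).mul (D _ _)).mul (D _ _)) (k h) (k h')
    rw [R10.pent, this]; abel

/-- truncated exponential. -/
def expOp (K : Type) [Field K] (N : ℕ) (f Φ : T K) : T K :=
  ∑ k ∈ Finset.range (N + 1), ((k.factorial : K)⁻¹) • (Op K f ^ k) Φ

/-- dual numbers of a filtered algebra. -/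
def Filt.dual {A : Type} [Ring A] [Algebra K A] {N : ℕ} (F : Filt K A N) :
    Filt K (DualNumber A) N where
  J k := (F.J k).comap (TrivSqZeroExt.fstHom K A A).toLinearMap ⊓
    (F.J k).comap ((TrivSqZeroExt.sndHom A A).restrictScalars K)
  top := by simp [F.top]
  anti := fun _ _ h => inf_le_inf (Submodule.comap_mono (F.anti h)) (Submodule.comap_mono (F.anti h))
  mul := fun {i j x y} hx hy => by
    refine ⟨F.mul hx.1 hy.1, ?_⟩
    have e : (x * y).snd = x.fst * y.snd + x.snd * y.fst := by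
      rw [← dn_eta x, ← dn_eta y, dn_mul]
      simp
    exact (show (x * y).snd ∈ F.J (i + j) from e ▸ add_mem (F.mul hx.1 hy.2) (F.mul hx.2 hy.1))
  bot := by
    rw [F.bot, eq_bot_iff]
    intro x hx
    exact TrivSqZeroExt.ext hx.1 hx.2

/-- the Taylor coefficients of the exponential. -/
def algb_phi (f Φ : T K) (k : ℕ) : T K := ((k.factorial : K)⁻¹) • (Op K f ^ k) Φ

theorem algb_Op_phi (f Φ : T K) (k : ℕ) :
    Op K f (algb_phi f Φ k) = algb_phi f Φ (k + 1) * (k + 1) := by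
  have h1 : ((k : K) + 1) ≠ 0 := Nat.cast_add_one_ne_zero k
  have e : ((k : T K) + 1) = algebraMap K (T K) (k + 1) := by simp
  rw [e, ← Algebra.commutes, ← Algebra.smul_def, algb_phi, algb_phi, map_smul, smul_smul, pow_succ',
    Module.End.mul_apply, Nat.factorial_succ, Nat.cast_mul, Nat.cast_succ, mul_inv,
    mul_inv_cancel_left₀ h1]

omit [CharZero K] in
theorem algb_phi_mem {m : ℕ} {f : T K} (hf : f ∈ L K m) (hm : 1 ≤ m) (Φ : T K) (k : ℕ) :
    algb_phi f Φ k ∈ Ge K w1 k := by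
  refine Submodule.smul_mem _ _ ?_
  induction k with
  | zero => simp [Ge_zero]
  | succ k ih =>
    rw [pow_succ', Module.End.mul_apply]
    exact Ge_anti w1 (by omega) (Op_mem_Ge (LS_le_Hom w1 m hf) ih)

section algb
variable {A : Type} [Ring A] [Algebra K A]

/-- the exponential with a formal parameter. -/
def algb_P (N : ℕ) (f Φ : T K) (p q : A) : Polynomial A :=
  ∑ k ∈ Finset.range (N + 1), Polynomial.monomial k (ev K p q (algb_phi f Φ k))

omit [CharZero K] in
theorem algb_coeff_zero (N : ℕ) (f Φ : T K) (p q : A) : (algb_P N f Φ p q).coeff 0 = ev K p q Φ := by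
  simp [algb_P, Polynomial.coeff_monomial, algb_phi]

omit [CharZero K] in
theorem algb_coeff {N m : ℕ} {f : T K} (hf : f ∈ L K m) (hm : 1 ≤ m) (Φ : T K) (F : Filt K A N) {p q : A}
    (hp : p ∈ F.J 1) (hq : q ∈ F.J 1) (k : ℕ) :
    (algb_P N f Φ p q).coeff k = ev K p q (algb_phi f Φ k) := by
  simp only [algb_P, Polynomial.finsetSum_coeff, Polynomial.coeff_monomial, Finset.sum_ite_eq',
    Finset.mem_range]
  split_ifs with hk
  · rfl
  · have h1 := map_mem_of_Ge w1 (ev K p q) F.J (F.top ▸ Submodule.mem_top) F.anti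
      (fun _ _ _ _ => F.mul) (fun i => by fin_cases i <;> simpa) (algb_phi_mem hf hm Φ k)
    have h2 := F.anti (not_lt.1 hk) h1
    rw [F.bot] at h2
    exact h2.symm

/-- evaluation at `1`. -/
def algb_one : Polynomial A →+* A :=
  Polynomial.eval₂RingHom' (RingHom.id A) 1 fun a => Commute.one_right a

omit [CharZero K] in
theorem algb_one_P (N : ℕ) (f Φ : T K) (p q : A) :
    algb_one (algb_P N f Φ p q) = ev K p q (expOp K N f Φ) := by
  simp [algb_one, algb_P, expOp, algb_phi]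

/-- `x + ε s`, coefficientwise. -/
def algb_Rel (w : Polynomial (DualNumber A)) (x s : Polynomial A) : Prop :=
  ∀ k, w.coeff k = dn (x.coeff k) (s.coeff k)

theorem algb_Rel.sub {w w' : Polynomial (DualNumber A)} {x s x' s' : Polynomial A}
    (h : algb_Rel w x s) (h' : algb_Rel w' x' s') : algb_Rel (w - w') (x - x') (s - s') := fun k => by
  simp only [Polynomial.coeff_sub, h k, h' k, dn_sub]

theorem algb_Rel.mul {w w' : Polynomial (DualNumber A)} {x s x' s' : Polynomial A}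
    (h : algb_Rel w x s) (h' : algb_Rel w' x' s') :
    algb_Rel (w * w') (x * x') (x * s' + s * x') := fun k => by
  simp only [Polynomial.coeff_add, Polynomial.coeff_mul, h _, h' _, dn_mul]
  ext
  · simp [TrivSqZeroExt.fst_sum]
  · simp [TrivSqZeroExt.snd_sum, Finset.sum_add_distrib]

omit [CharZero K] in
theorem algb_mem {N k : ℕ} (F : Filt K A N) {a u : A} (ha : a ∈ F.J k) (hu : u ∈ F.J k) :
    dn a u ∈ F.dual.J k :=
  ⟨show (dn a u).fst ∈ F.J k from (fst_dn a u).symm ▸ ha,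
    show (dn a u).snd ∈ F.J k from (snd_dn a u).symm ▸ hu⟩

theorem algb_commute {a u b v : A} (h1 : Commute a b) (h2 : Commute a v) (h3 : Commute u b) :
    Commute (dn a u) (dn b v) := by
  rw [Commute, SemiconjBy, dn_mul, dn_mul, h1.eq, h2.eq, h3.eq, add_comm]

theorem algb_rel {N m : ℕ} {f : T K} (hf : f ∈ L K m) (hm : 1 ≤ m) (Φ : T K) (F : Filt K A N)
    {p q sp sq u v : A} (hp : p ∈ F.J 1) (hq : q ∈ F.J 1) (hsp : sp ∈ F.J 1) (hsq : sq ∈ F.J 1)
    (E : Edge K f p q sp sq u v) :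
    algb_Rel (algb_P N f Φ (dn p sp) (dn q sq)) (algb_P N f Φ p q)
      (Polynomial.derivative (algb_P N f Φ p q) - Polynomial.C v * algb_P N f Φ p q +
        algb_P N f Φ p q * Polynomial.C u) := fun k => by
  rw [algb_coeff hf hm Φ F.dual (algb_mem F hp hsp) (algb_mem F hq hsq), E.ev_dn, algb_Op_phi,
    Polynomial.coeff_add, Polynomial.coeff_sub, Polynomial.coeff_C_mul, Polynomial.coeff_mul_C,
    Polynomial.coeff_derivative, algb_coeff hf hm Φ F hp hq, algb_coeff hf hm Φ F hp hq]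
  simp

include K in
theorem algb_step {D : Polynomial A} {k : ℕ} (v u : A) (h0 : D.coeff k = 0)
    (h : (Polynomial.derivative D - Polynomial.C v * D + D * Polynomial.C u).coeff k = 0) :
    D.coeff (k + 1) = 0 := by
  rw [Polynomial.coeff_add, Polynomial.coeff_sub, Polynomial.coeff_C_mul, Polynomial.coeff_mul_C, h0,
    mul_zero, zero_mul, sub_zero, add_zero, Polynomial.coeff_derivative] at h
  have e : ((k : A) + 1) = algebraMap K A (k + 1) := by simp
  rw [e, ← Algebra.commutes, ← Algebra.smul_def, smul_eq_zero] at h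
  exact h.resolve_left (Nat.cast_add_one_ne_zero k)

end algb

/-- Put `φ_k = (k!)⁻¹ Op^k Φ` and, for a pair `(p,q)`, `P(p,q) = ∑_{k ≤ N} monomial k (ev p q φ_k)`
in `Polynomial A` (`ev p q φ_k = 0` for `k > N`: `Op_mem_Ge`, `map_mem_of_Ge`).  By induction on `k`,
for ALL filtered algebras and families: `coeff k (P(a+a',b+b') - P(a,b) P(a',b')) = 0`.
Step: `(k+1) coeff (k+1) = coeff k ∘ derivative`, `derivative P(p,q) = ∑ monomial k (ev p q (Op φ_k))`,
and `Edge.ev_dn` computes `ev p q (Op f φ_k)` as `snd` of the evaluation on the deformed family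
`dn a 0, dn b ⁅b,f(a,b)⁆, dn a' 0, dn b' ⁅b',f(a',b')⁆` (in `Filt.dual`) plus potential terms; `f` is
primitive (`ev_prim`).  Evaluate at `1`.  (Equivalently: work with the coefficient sums
`∑_{i+j=k} φ_i φ_j` directly.) -/
theorem expOp_grp {N m : ℕ} {f Φ : T K} (hf : Grt K m f) (hm : 1 ≤ m) (h : Assoc K N Φ)
    (A : Type) [Ring A] [Algebra K A] (F : Filt K A N) (a b a' b' : A)
    (ha : a ∈ F.J 1) (hb : b ∈ F.J 1) (ha' : a' ∈ F.J 1) (hb' : b' ∈ F.J 1)
    (h1 : Commute a a') (h2 : Commute a b') (h3 : Commute b a') (h4 : Commute b b') :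
    ev K (a + a') (b + b') (expOp K N f Φ) =
      ev K a b (expOp K N f Φ) * ev K a' b' (expOp K N f Φ) := by
  have key : ∀ (k : ℕ) (A : Type) [Ring A] [Algebra K A] (F : Filt K A N) (a b a' b' : A),
      a ∈ F.J 1 → b ∈ F.J 1 → a' ∈ F.J 1 → b' ∈ F.J 1 → Commute a a' → Commute a b' → Commute b a' →
      Commute b b' →
      (algb_P N f Φ (a + a') (b + b') - algb_P N f Φ a b * algb_P N f Φ a' b').coeff k = 0 := by
    intro k
    induction k with
    | zero =>
      intro A _ _ F a b a' b' ha hb ha' hb' h1 h2 h3 h4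
      rw [Polynomial.coeff_sub, Polynomial.mul_coeff_zero, algb_coeff_zero, algb_coeff_zero,
        algb_coeff_zero, h.grp A F a b a' b' ha hb ha' hb' h1 h2 h3 h4, sub_self]
    | succ k ih =>
      intro A _ _ F a b a' b' ha hb ha' hb' h1 h2 h3 h4
      have cv : Commute a (ev K a' b' f) := commute_ev h1 h2 f
      have cv' : Commute b (ev K a' b' f) := commute_ev h3 h4 f
      have cw : Commute a' (ev K a b f) := commute_ev h1.symm h3.symm f
      have cw' : Commute b' (ev K a b f) := commute_ev h2.symm h4.symm f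
      have cl : ∀ {x y z : A}, Commute x y → Commute x z → Commute x ⁅y, z⁆ := fun hy hz => by
        rw [Ring.lie_def]
        exact (hy.mul_right hz).sub_right (hz.mul_right hy)
      have hl : ∀ {x : A} (y : A), x ∈ F.J 1 → ⁅x, y⁆ ∈ F.J 1 := fun y hx => by
        have hy : y ∈ F.J 0 := F.top ▸ Submodule.mem_top
        rw [Ring.lie_def]
        exact sub_mem (F.mul hx hy) (F.mul hy hx)
      have E1 : Edge K f a b 0 ⁅b, ev K a b f⁆ 0 (ev K a b f) :=
        ⟨by simp [Ring.lie_def], rfl, sub_zero _⟩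
      have E2 : Edge K f a' b' 0 ⁅b', ev K a' b' f⁆ 0 (ev K a' b' f) :=
        ⟨by simp [Ring.lie_def], rfl, sub_zero _⟩
      have E0 : Edge K f (a + a') (b + b') (0 + 0) (⁅b, ev K a b f⁆ + ⁅b', ev K a' b' f⁆) 0
          (ev K a b f + ev K a' b' f) := by
        refine ⟨by simp [Ring.lie_def], ?_, by rw [sub_zero, ev_prim hf.lie h1 h2 h3 h4]⟩
        rw [lie_add_l, lie_add_r, lie_add_r, lie_of_commute cv', lie_of_commute cw', add_zero, zero_add]
      have R := (algb_rel hf.lie hm Φ F (add_mem ha ha') (add_mem hb hb') (by simp)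
        (add_mem (hl _ hb) (hl _ hb')) E0).sub ((algb_rel hf.lie hm Φ F ha hb (zero_mem _) (hl _ hb) E1).mul
          (algb_rel hf.lie hm Φ F ha' hb' (zero_mem _) (hl _ hb') E2))
      have I := ih (DualNumber A) F.dual (dn a 0) (dn b ⁅b, ev K a b f⁆) (dn a' 0) (dn b' ⁅b', ev K a' b' f⁆)
        (algb_mem F ha (zero_mem _)) (algb_mem F hb (hl _ hb)) (algb_mem F ha' (zero_mem _))
        (algb_mem F hb' (hl _ hb'))
        (algb_commute h1 (Commute.zero_right _) (Commute.zero_left _))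
        (algb_commute h2 (cl h2 cv) (Commute.zero_left _))
        (algb_commute h3 (Commute.zero_right _) (cl h3.symm cw).symm)
        (algb_commute h4 (cl h4 cv') (cl h4.symm cw').symm)
      rw [dn_add, dn_add, R k, dn_zero, dn_inj] at I
      have hc : algb_P N f Φ a b * Polynomial.C (ev K a' b' f) =
          Polynomial.C (ev K a' b' f) * algb_P N f Φ a b := by
        ext i
        rw [Polynomial.coeff_mul_C, Polynomial.coeff_C_mul, algb_coeff hf.lie hm Φ F ha hb]
        exact (commute_ev cv.symm cv'.symm _).symm.eq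
      refine algb_step (K := K) (ev K a b f + ev K a' b' f) 0 I.1 (Eq.trans ?_ I.2)
      congr 1
      simp only [Polynomial.derivative_sub, Polynomial.derivative_mul, map_add, map_zero]
      linear_combination (norm := noncomm_ring) -hc * algb_P N f Φ a' b'
  have e := congrArg algb_one (Polynomial.ext fun k =>
    (key k A F a b a' b' ha hb ha' hb' h1 h2 h3 h4).trans (Polynomial.coeff_zero k).symm)
  rwa [map_sub, map_mul, algb_one_P, algb_one_P, algb_one_P, map_zero, sub_eq_zero] at e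

/-- same scheme with `deform`: the potential terms telescope to `-u3 * D + D * u1`-type terms,
`D` the defect. -/
theorem expOp_pent {N m : ℕ} {f Φ : T K} (hf : Grt K m f) (hm : 1 ≤ m) (h : Assoc K N Φ)
    (A : Type) [Ring A] [Algebra K A] (F : Filt K A N) (a b c d e g : A)
    (ha : a ∈ F.J 1) (hb : b ∈ F.J 1) (hc : c ∈ F.J 1) (hd : d ∈ F.J 1) (he : e ∈ F.J 1)
    (hg : g ∈ F.J 1) (hB : Br a b c d e g) :
    ev K a (d + e) (expOp K N f Φ) * ev K (b + d) g (expOp K N f Φ) =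
      ev K d g (expOp K N f Φ) * ev K (a + b) (e + g) (expOp K N f Φ) *
        ev K a d (expOp K N f Φ) := by
  have key : ∀ (k : ℕ) (A : Type) [Ring A] [Algebra K A] (F : Filt K A N) (a b c d e g : A),
      a ∈ F.J 1 → b ∈ F.J 1 → c ∈ F.J 1 → d ∈ F.J 1 → e ∈ F.J 1 → g ∈ F.J 1 → Br a b c d e g →
      (algb_P N f Φ a (d + e) * algb_P N f Φ (b + d) g -
        algb_P N f Φ d g * algb_P N f Φ (a + b) (e + g) * algb_P N f Φ a d).coeff k = 0 := by
    intro k
    induction k with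
    | zero =>
      intro A _ _ F a b c d e g ha hb hc hd he hg hB
      simp only [Polynomial.coeff_sub, Polynomial.mul_coeff_zero, algb_coeff_zero]
      rw [h.pent A F a b c d e g ha hb hc hd he hg hB, sub_self]
    | succ k ih =>
      intro A _ _ F a b c d e g ha hb hc hd he hg hB
      obtain ⟨sa, sb, sc, sd, se, sg, u1, u2, u3, u4, u5, hs, hB', E1, E2, E3, E4, E5⟩ := deform hf hB
      have hs' : ∀ s ∈ [sa, sb, sc, sd, se, sg], s ∈ F.J 1 := fun s hs' =>
        F.anti (by omega) (F.LS_le_J _ (fun i => by fin_cases i <;> assumption) _ (hs s hs'))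
      simp only [List.mem_cons, List.not_mem_nil, or_false, forall_eq_or_imp, forall_eq] at hs'
      obtain ⟨ma, mb, mc, md, me, mg⟩ := hs'
      have R := ((algb_rel hf.lie hm Φ F ha (add_mem hd he) ma (add_mem md me) E1).mul
        (algb_rel hf.lie hm Φ F (add_mem hb hd) hg (add_mem mb md) mg E2)).sub
        (((algb_rel hf.lie hm Φ F hd hg md mg E3).mul
          (algb_rel hf.lie hm Φ F (add_mem ha hb) (add_mem he hg) (add_mem ma mb) (add_mem me mg) E4)).mul
          (algb_rel hf.lie hm Φ F ha hd ma md E5))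
      have I := ih (DualNumber A) F.dual _ _ _ _ _ _ (algb_mem F ha ma) (algb_mem F hb mb)
        (algb_mem F hc mc) (algb_mem F hd md) (algb_mem F he me) (algb_mem F hg mg) hB'
      rw [dn_add, dn_add, dn_add, dn_add, R k, dn_zero, dn_inj] at I
      refine algb_step (K := K) u3 u1 I.1 (Eq.trans ?_ I.2)
      congr 1
      simp only [Polynomial.derivative_sub, Polynomial.derivative_mul]
      noncomm_ring
  have e := congrArg algb_one (Polynomial.ext fun k =>
    (key k A F a b c d e g ha hb hc hd he hg hB).trans (Polynomial.coeff_zero k).symm)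
  rwa [map_sub, map_mul, map_mul, map_mul, algb_one_P, algb_one_P, algb_one_P, algb_one_P, algb_one_P,
    map_zero, sub_eq_zero] at e

omit [CharZero K] in
theorem algc_Op_pow_mem {m : ℕ} {f : T K} (hf : f ∈ L K m) (Φ : T K) (k : ℕ) :
    (Op K f ^ k) Φ ∈ Ge K w1 (k * m) := by
  induction k with
  | zero => rw [zero_mul, Ge_zero]; trivial
  | succ k ih =>
    rw [pow_succ', Module.End.mul_apply, Nat.succ_mul]
    exact Op_mem_Ge (LS_le_Hom w1 m hf) ih

/-- `expOp f Φ = Φ + f + (weight > m)` when `Φ = 1 + (weight ≥ 2)`. -/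
theorem expOp_sub_mem {N m : ℕ} {f Φ : T K} (hf : f ∈ L K m) (hm : 1 ≤ m) (hN : 1 ≤ N)
    (h : Φ - 1 ∈ Ge K w1 2) : expOp K N f Φ - Φ - f ∈ Ge K w1 (m + 1) := by
  obtain ⟨N, rfl⟩ : ∃ N', N = N' + 1 := ⟨N - 1, by omega⟩
  have h1 : Op K f 1 = f := Op_one f
  have e : expOp K (N + 1) f Φ - Φ - f =
      (∑ k ∈ Finset.range N, (((k + 1 + 1).factorial : K)⁻¹) • (Op K f ^ (k + 1 + 1)) Φ) +
        Op K f (Φ - 1) := by
    rw [expOp, Finset.sum_range_succ', Finset.sum_range_succ', map_sub, h1]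
    simp only [zero_add, Nat.factorial_one, Nat.cast_one, inv_one, pow_one, one_smul,
      Nat.factorial_zero, pow_zero, Module.End.one_apply]
    abel
  rw [e]
  refine Submodule.add_mem _ (Submodule.sum_mem _ fun k _ => Submodule.smul_mem _ _ ?_) ?_
  · refine Ge_anti w1 ?_ (algc_Op_pow_mem hf Φ _)
    nlinarith
  · exact Ge_anti w1 (by omega) (Op_mem_Ge (LS_le_Hom w1 m hf) h)

omit [CharZero K] in
theorem algc_cc_cmp_Op {m n : ℕ} {f : T K} (hf : f ∈ L K m) (hm : 2 ≤ m) (hn : n ≠ m) (φ : T K) :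
    cc K (cmp K w1 n (Op K f φ)) = 0 := by
  obtain ⟨r, -, hr⟩ := exists_sum_cmp (K := K) w1 φ
  rw [hr, map_sum, map_sum, map_sum]
  refine Finset.sum_eq_zero fun i _ => ?_
  rw [cmp_of_mem_Hom w1 (Op_mem_Hom (LS_le_Hom w1 m hf) (cmp_mem_Hom w1 i φ))]
  split_ifs with h
  · have h0 := ev_smul_of_Hom (cmp_mem_Hom (K := K) w1 i φ) (0 : K) (0 : K) (0 : K)
    rw [zero_pow (by omega), zero_smul, zero_smul] at h0
    rw [cc_Op hf hm, h0, mul_zero]
  · exact map_zero _

/-- `cmp n (Op f φ) = Op f (cmp (n-m) φ)` or `0`; `cc_Op`, `cmp_zero_eq`. -/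
theorem cc_cmp_expOp {N m n : ℕ} {f Φ : T K} (hf : f ∈ L K m) (hm : 2 ≤ m) (hn : n ≠ m) :
    cc K (cmp K w1 n (expOp K N f Φ)) = cc K (cmp K w1 n Φ) := by
  rw [expOp, Finset.sum_range_succ', map_add, map_add, map_sum, map_sum, Finset.sum_eq_zero]
  · simp
  · intro k _
    rw [map_smul, map_smul, pow_succ', Module.End.mul_apply, algc_cc_cmp_Op hf hm hn, smul_zero]

theorem Assoc.expOp {N m : ℕ} {f Φ : T K} (hf : Grt K m f) (hm : 3 ≤ m) (hN : 1 ≤ N)
    (h : Assoc K N Φ) : Assoc K N (expOp K N f Φ) := by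
  refine ⟨?_, fun A _ _ F => expOp_grp hf (by omega) h A F,
    fun A _ _ F => expOp_pent hf (by omega) h A F⟩
  have e : R10.expOp K N f Φ - 1 = (R10.expOp K N f Φ - Φ - f) + (Φ - 1) + f := by abel
  rw [e]
  refine Submodule.add_mem _ (Submodule.add_mem _ ?_ h.one) ?_
  · exact Ge_anti w1 (by omega) (expOp_sub_mem hf.lie (by omega) hN h.one)
  · exact Ge_anti w1 (by omega) (Hom_le_Ge w1 m (LS_le_Hom w1 m hf.lie))

/-- induction on `m` from `3` to `N`: an associator `Ψ` with `Φ - Ψ ∈ Ge m` and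
`cc (cmp N Ψ) = - cc (cmp N Φ)`; start with `Ψ = Φ(-x,-y)`; at `m = N` take
`f = cmp N (Φ - Ψ)`, `cc f = 2 cc (cmp N Φ)`. -/
theorem exists_grt_of_assoc {N : ℕ} (hN : 3 ≤ N) (hodd : Odd N) {Φ : T K} (h : Assoc K N Φ)
    (hc : cc K (cmp K w1 N Φ) ≠ 0) : ∃ f, Grt K N f ∧ cc K f ≠ 0 := by
  have key : ∀ m, 3 ≤ m → m ≤ N → ∃ Ψ, Assoc K N Ψ ∧ Φ - Ψ ∈ Ge K w1 m ∧
      cc K (cmp K w1 N Ψ) = - cc K (cmp K w1 N Φ) := by
    intro m hm
    induction m, hm using Nat.le_induction with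
    | base =>
      intro _
      refine ⟨_, h.neg, (mem_Ge w1).2 fun i hi => ?_, ?_⟩
      · rw [map_sub, cmp_ev_neg]
        interval_cases i
        · simp
        · have h1 := (mem_Ge w1).1 h.one 1 (by omega)
          rw [map_sub, cmp_one, if_neg one_ne_zero, sub_zero] at h1
          rw [h1]; simp
        · simp
      · rw [cmp_ev_neg, hodd.neg_one_pow, map_smul]; simp
    | succ m hm ih =>
      intro hle
      obtain ⟨Ψ, hΨ, hd, hcc⟩ := ih (by omega)
      have hg := h.diff_grt hΨ hm (by omega) hd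
      refine ⟨_, hΨ.expOp hg hm (by omega), ?_, ?_⟩
      · have e : Φ - expOp K N (cmp K w1 m (Φ - Ψ)) Ψ = (Φ - Ψ - cmp K w1 m (Φ - Ψ)) -
            (expOp K N (cmp K w1 m (Φ - Ψ)) Ψ - Ψ - cmp K w1 m (Φ - Ψ)) := by abel
        rw [e]
        exact Submodule.sub_mem _ (sub_cmp_mem_Ge w1 hd)
          (expOp_sub_mem hg.lie (by omega) (by omega) hΨ.one)
      · rw [cc_cmp_expOp hg.lie (by omega) (by omega), hcc]
  obtain ⟨Ψ, hΨ, hd, hcc⟩ := key N hN le_rfl
  refine ⟨_, h.diff_grt hΨ hN le_rfl hd, ?_⟩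
  rw [map_sub, map_sub, hcc, sub_neg_eq_add, ← two_mul]
  exact mul_ne_zero two_ne_zero hc

open scoped TensorProduct in
/-- `λ ⊗ id`. -/
def algcLam (lam : ℝ →ₗ[ℚ] ℚ) (A : Type) [Ring A] [Algebra ℚ A] : ℝ ⊗[ℚ] A →ₗ[ℚ] A :=
  TensorProduct.lift ((LinearMap.lsmul ℚ A).comp lam)

open scoped TensorProduct in
theorem algcLam_smul (lam : ℝ →ₗ[ℚ] ℚ) (A : Type) [Ring A] [Algebra ℚ A] (r : ℝ)
    (t : ℝ ⊗[ℚ] A) :
    algcLam lam A (r • t) = algcLam (lam.comp (LinearMap.mulLeft ℚ r)) A t := by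
  induction t using TensorProduct.induction_on with
  | zero => simp
  | tmul s a => simp [algcLam, TensorProduct.smul_tmul']
  | add s t hs ht => rw [smul_add, map_add, map_add, hs, ht]

theorem algc_descend {N : ℕ} {f : T ℝ} (hf : f ∈ L ℝ N) (lam : ℝ →ₗ[ℚ] ℚ) :
    ∃ f' ∈ L ℚ N, cc ℚ f' = lam (cc ℝ f) ∧ ∀ (A : Type) [Ring A] [Algebra ℚ A] (a b : A),
      algcLam lam A (ev ℝ (Algebra.TensorProduct.includeRight (R := ℚ) (A := ℝ) a)
        (Algebra.TensorProduct.includeRight (R := ℚ) (A := ℝ) b) f) = ev ℚ a b f' := by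
  have h := LS_le_span_bc (K := ℚ) w1 N hf
  clear hf
  induction h using Submodule.span_induction generalizing lam with
  | mem x hx =>
    obtain ⟨g, hg, rfl⟩ := hx
    refine ⟨lam 1 • g, Submodule.smul_mem _ _ hg, ?_, fun A _ _ a b => ?_⟩
    · rw [cc_bc, Algebra.algebraMap_eq_smul_one, map_smul, map_smul, smul_eq_mul, smul_eq_mul,
        mul_comm]
    · rw [ev_bc, ← map_ev, map_smul]
      simp [algcLam]
  | zero => exact ⟨0, Submodule.zero_mem _, by simp, fun A _ _ a b => by simp⟩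
  | add x y _ _ hx hy =>
    obtain ⟨x', hx', h1, h2⟩ := hx lam
    obtain ⟨y', hy', h3, h4⟩ := hy lam
    refine ⟨x' + y', Submodule.add_mem _ hx' hy', ?_, fun A _ _ a b => ?_⟩
    · rw [map_add, map_add, map_add, h1, h3]
    · rw [map_add, map_add, map_add, h2, h4]
  | smul r x _ hx =>
    obtain ⟨x', hx', h1, h2⟩ := hx (lam.comp (LinearMap.mulLeft ℚ r))
    refine ⟨x', hx', ?_, fun A _ _ a b => ?_⟩
    · rw [h1, map_smul]; simp
    · rw [map_smul, algcLam_smul, h2]

/-- descent: `f = ∑ r_j • bc f_j` (`LS_le_span_bc`); pick a `ℚ`-linear `λ : ℝ → ℚ` with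
`λ (cc f) ≠ 0`; `f' = ∑ λ(r_j) • f_j`.  Pentagon of `f` in `ℝ ⊗[ℚ] A` for the family `1 ⊗ t`, then
apply `λ ⊗ id`; `furusho`. -/
theorem grt_descend {N : ℕ} (hN : 3 ≤ N) {f : T ℝ} (hf : Grt ℝ N f) (hc : cc ℝ f ≠ 0) :
    ∃ f', Grt ℚ N f' ∧ cc ℚ f' ≠ 0 := by
  obtain ⟨lam, hlam⟩ : ∃ lam : ℝ →ₗ[ℚ] ℚ, lam (cc ℝ f) ≠ 0 := by
    by_contra hne
    exact hc ((Module.forall_dual_apply_eq_zero_iff ℚ _).1 fun φ => by
      by_contra h0; exact hne ⟨φ, h0⟩)
  obtain ⟨f', hf', h1, h2⟩ := algc_descend hf.lie lam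
  refine ⟨f', furusho hf' hN fun A _ _ a b c d e g hB => ?_, by rwa [h1]⟩
  have h3 := congrArg (algcLam lam A) (hf.pent _ _ _ _ _ _ _
    (hB.map (Algebra.TensorProduct.includeRight (R := ℚ) (A := ℝ) (B := A))))
  rw [pent, ← map_add, ← map_add, ← map_add, ← map_add, map_sub, map_sub, map_sub, map_add,
    h2, h2, h2, h2, h2, map_zero] at h3
  exact h3

theorem exists_grt (k : ℕ) : ∃ f, Grt ℚ (2 * k + 3) f ∧ cc ℚ f ≠ 0 := by
  obtain ⟨Φ, hΦ, hc⟩ := exists_assoc (2 * k + 3) (by omega)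
  obtain ⟨f, hf, hf'⟩ := exists_grt_of_assoc (by omega) ⟨k + 1, by omega⟩ hΦ
    (hc _ (by omega) le_rfl)
  exact grt_descend (by omega) hf hf'

end Crest.Agent.R10
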