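import Crest.Agent.R10.Grade

/-! # Row 10, block E-an, step 1: powers `t^a`, linear ODEs in a nilpotent filtered algebra, canonical solutions -/

set_option autoImplicit false
set_option linter.unusedSectionVars false

open Set Filter
open scoped Topology

noncomputable section
namespace Crest.Agent.R10.An

section alg
variable {A : Type} [Ring A] [Algebra ℝ A] {N : ℕ} (F : Filt ℝ A N)

theorem mem0 (x : A) : x ∈ F.J 0 := by rw [F.top]; trivial

theorem mulL {k : ℕ} {p v : A} (hp : p ∈ F.J 1) (hv : v ∈ F.J k) : p * v ∈ F.J (k + 1) := by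
  rw [add_comm]; exact F.mul hp hv

theorem mul0L {k : ℕ} (x : A) {v : A} (hv : v ∈ F.J k) : x * v ∈ F.J k := by
  simpa using F.mul (mem0 F x) hv

theorem mul0R {k : ℕ} (x : A) {v : A} (hv : v ∈ F.J k) : v * x ∈ F.J k := F.mul hv (mem0 F x)

theorem eq_zero_of_mem {v : A} (h : v ∈ F.J (N + 1)) : v = 0 := by simpa [F.bot] using h

theorem eq_zero_of_step {v : A} (h : ∀ k, v ∈ F.J k → v ∈ F.J (k + 1)) : v = 0 :=
  eq_zero_of_mem F (Nat.rec (mem0 F v) h (N + 1))

theorem pow_mem' {x : A} (hx : x ∈ F.J 1) (k : ℕ) : x ^ k ∈ F.J k := by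
  induction k with
  | zero => exact mem0 F _
  | succ k ih => rw [pow_succ]; exact F.mul ih hx

theorem isUnit_of_mem {x : A} (hx : x - 1 ∈ F.J 1) : IsUnit x := by
  have := IsNilpotent.isUnit_add_one ⟨N + 1, eq_zero_of_mem F (pow_mem' F hx _)⟩
  rwa [sub_add_cancel] at this

theorem mul_sub_one_mem {x y : A} (hx : x - 1 ∈ F.J 1) (hy : y - 1 ∈ F.J 1) : x * y - 1 ∈ F.J 1 := by
  have : x * y - 1 = x * (y - 1) + (x - 1) := by noncomm_ring
  rw [this]; exact add_mem (mul0L F _ hy) hx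

end alg

variable {A : Type} [NormedRing A] [NormedAlgebra ℝ A] [FiniteDimensional ℝ A] {N : ℕ} (F : Filt ℝ A N)

theorem complete : CompleteSpace A := FiniteDimensional.complete ℝ A

attribute [local instance] complete

theorem sub_mem_of_deriv (S : Submodule ℝ A) {s : Set ℝ} (hs : IsOpen s) (hs' : IsPreconnected s)
    {K K' : ℝ → A} (h : ∀ t ∈ s, HasDerivAt K (K' t) t) (h' : ∀ t ∈ s, K' t ∈ S) {t t₀ : ℝ} (ht : t ∈ s)
    (ht₀ : t₀ ∈ s) : K t - K t₀ ∈ S := by
  rw [← Subspace.forall_mem_dualAnnihilator_apply_eq_zero_iff]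
  intro φ hφ
  have hd : ∀ u ∈ s, HasDerivAt (fun u => φ (K u)) 0 u := fun u hu => by
    have := (LinearMap.toContinuousLinearMap φ).hasFDerivAt.comp_hasDerivAt u (h u hu)
    rwa [LinearMap.coe_toContinuousLinearMap', (Submodule.mem_dualAnnihilator φ).1 hφ _ (h' u hu)] at this
  rw [map_sub, sub_eq_zero]
  exact hs.is_const_of_deriv_eq_zero hs' (fun u hu => (hd u hu).differentiableAt.differentiableWithinAt)
    (fun u hu => (hd u hu).deriv) ht ht₀

theorem mem_of_tendsto' (S : Submodule ℝ A) {ι : Type} {l : Filter ι} [l.NeBot] {f : ι → A} {v : A}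
    (h : Tendsto f l (𝓝 v)) (hf : ∀ᶠ i in l, f i ∈ S) : v ∈ S :=
  S.closed_of_finiteDimensional.mem_of_tendsto h hf

/-- two solutions of a linear equation differ by a constant on the right -/
theorem ode_unique {ω g g' : ℝ → A} (hω : ∀ t, ω t ∈ F.J 1)
    (hg : ∀ t ∈ Ioo (0 : ℝ) 1, HasDerivAt g (ω t * g t) t) (hg' : ∀ t ∈ Ioo (0 : ℝ) 1, HasDerivAt g' (ω t * g' t) t)
    {t₀ : ℝ} (ht₀ : t₀ ∈ Ioo (0 : ℝ) 1) (hu : IsUnit (g' t₀)) : ∃ D, ∀ t ∈ Ioo (0 : ℝ) 1, g t = g' t * D := by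
  obtain ⟨D, hD⟩ : ∃ D, g' t₀ * D = g t₀ := ⟨hu.unit⁻¹ * g t₀, by rw [← mul_assoc, hu.mul_val_inv, one_mul]⟩
  have hK : ∀ t ∈ Ioo (0 : ℝ) 1, HasDerivAt (fun t => g t - g' t * D) (ω t * (g t - g' t * D)) t := fun t ht => by
    exact ((hg t ht).sub ((hg' t ht).mul_const D)).congr_deriv (by noncomm_ring)
  have key : ∀ k, ∀ t ∈ Ioo (0 : ℝ) 1, g t - g' t * D ∈ F.J k := by
    intro k
    induction k with
    | zero => exact fun t _ => mem0 F _
    | succ k ih =>
      intro t ht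
      simpa [hD] using sub_mem_of_deriv _ isOpen_Ioo isPreconnected_Ioo hK (fun t ht => mulL F (hω t) (ih t ht)) ht ht₀
  exact ⟨D, fun t ht => sub_eq_zero.1 (eq_zero_of_mem F (key _ t ht))⟩

theorem tendsto_cancel {ι : Type} {l : Filter ι} {u v : ι → A} {u₀ D : A} (hu : Tendsto u l (𝓝 u₀))
    (h0 : IsUnit u₀) (h : Tendsto (fun i => u i * v i) l (𝓝 (u₀ * D))) : Tendsto v l (𝓝 D) := by
  obtain ⟨u₀, rfl⟩ := h0
  have h1 := ((NormedRing.inverse_continuousAt u₀).tendsto.comp hu).mul h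
  rw [Ring.inverse_mul_cancel_left _ _ u₀.isUnit] at h1
  refine h1.congr' ?_
  filter_upwards [hu.eventually (Units.isOpen.mem_nhds u₀.isUnit)] with i hi
  exact Ring.inverse_mul_cancel_left _ _ hi

/-- `t ^ a` -/
def pw (t : ℝ) (a : A) : A := NormedSpace.exp (Real.log t • a)

theorem ball_mem (x : A) : x ∈ Metric.eball (0 : A) (NormedSpace.expSeries ℝ A).radius :=
  (NormedSpace.expSeries_radius_eq_top ℝ A).symm ▸ edist_lt_top _ _

theorem pw_add {a b : A} (h : Commute a b) (t : ℝ) : pw t (a + b) = pw t a * pw t b := by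
  rw [pw, smul_add]
  exact NormedSpace.exp_add_of_commute_of_mem_ball (𝕂 := ℝ) ((h.smul_left _).smul_right _) (ball_mem _) (ball_mem _)

theorem pw_mul {s t : ℝ} (hs : s ≠ 0) (ht : t ≠ 0) (a : A) : pw (s * t) a = pw s a * pw t a := by
  rw [pw, Real.log_mul hs ht, add_smul]
  exact NormedSpace.exp_add_of_commute_of_mem_ball (𝕂 := ℝ) (((Commute.refl a).smul_left _).smul_right _)
    (ball_mem _) (ball_mem _)

@[simp] theorem pw_zero (t : ℝ) : pw t (0 : A) = 1 := by simp [pw]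

@[simp] theorem pw_one (a : A) : pw 1 a = 1 := by simp [pw]

theorem pw_mul_neg (t : ℝ) (a : A) : pw t a * pw t (-a) = 1 := by
  rw [← pw_add (Commute.refl a).neg_right, add_neg_cancel, pw_zero]

theorem comm_pw {c a : A} (h : Commute c a) (t : ℝ) : Commute c (pw t a) := (h.smul_right _).exp_right

theorem map_pw {B : Type} [NormedRing B] [NormedAlgebra ℝ B] (φ : A →ₐ[ℝ] B) (t : ℝ) (a : A) :
    φ (pw t a) = NormedSpace.exp (Real.log t • φ a) := by
  rw [pw, NormedSpace.map_exp_of_mem_ball (𝕂 := ℝ) φ φ.toLinearMap.continuous_of_finiteDimensional _ (ball_mem _),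
    map_smul]

theorem hasDerivAt_pw {u : ℝ → ℝ} {u' t : ℝ} (hu : HasDerivAt u u' t) (h : u t ≠ 0) (a : A) :
    HasDerivAt (fun s => pw (u s) a) ((u' / u t) • (a * pw (u t) a)) t :=
  HasDerivAt.scomp (g₁ := fun s : ℝ => NormedSpace.exp (s • a)) (h := fun s => Real.log (u s)) t
    (hasDerivAt_exp_smul_const' (𝕂 := ℝ) a (Real.log (u t))) (hu.log h)

theorem pw_sub_one_mem (S : Submodule ℝ A) {a : A} (ha : ∀ x, a * x ∈ S) (t : ℝ) : pw t a - 1 ∈ S := by
  simpa [pw] using sub_mem_of_deriv S isOpen_univ isPreconnected_univ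
    (fun s _ => hasDerivAt_exp_smul_const' (𝕂 := ℝ) a s) (fun s _ => ha _) (mem_univ (Real.log t)) (mem_univ 0)

theorem pw_mem {a : A} (ha : a ∈ F.J 1) (t : ℝ) : pw t a - 1 ∈ F.J 1 :=
  pw_sub_one_mem _ (fun x => mul0R F x ha) t

theorem mul_pw_of_zero {b a : A} (h : b * a = 0) (t : ℝ) : b * pw t a = b := by
  have := pw_sub_one_mem (LinearMap.ker (LinearMap.mulLeft ℝ b)) (a := a) (fun x => by
    rw [LinearMap.mem_ker, LinearMap.mulLeft_apply, ← mul_assoc, h, zero_mul]) t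
  rwa [LinearMap.mem_ker, LinearMap.mulLeft_apply, mul_sub, mul_one, sub_eq_zero] at this

theorem pw_of_sq {b : A} (h : b * b = 0) (t : ℝ) : pw t b = 1 + Real.log t • b := by
  have hd : ∀ s ∈ (univ : Set ℝ), HasDerivAt (fun s : ℝ => NormedSpace.exp (s • b) - s • b) 0 s := fun s _ => by
    have h1 := mul_pw_of_zero h (Real.exp s)
    rw [pw, Real.log_exp] at h1
    exact ((hasDerivAt_exp_smul_const' (𝕂 := ℝ) b s).sub ((hasDerivAt_id s).smul_const b)).congr_deriv
      (by rw [h1, one_smul, sub_self])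
  have := sub_mem_of_deriv ⊥ isOpen_univ isPreconnected_univ hd (fun _ _ => zero_mem _)
    (mem_univ (Real.log t)) (mem_univ 0)
  simp only [zero_smul, NormedSpace.exp_zero, sub_zero, Submodule.mem_bot] at this
  rw [pw, ← sub_eq_zero, ← this]; abel

theorem conj_zero {a v : A} (ha : a ∈ F.J 1) (h : Tendsto (fun t => pw t a * v * pw t (-a)) (𝓝[>] 0) (𝓝 0)) :
    v = 0 := by
  refine eq_zero_of_step F fun k hv => ?_
  have h1 := mem_of_tendsto' (F.J (k + 1)) (h.sub_const v) (Eventually.of_forall fun t => by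
    have : pw t a * v * pw t (-a) - v = (pw t a - 1) * v * pw t (-a) + v * (pw t (-a) - 1) := by noncomm_ring
    rw [this]
    exact add_mem (mul0R F _ (mulL F (pw_mem F ha t) hv)) (F.mul hv (pw_mem F (neg_mem ha) t)))
  simpa using h1

theorem conj_lim {a D D' : A} (ha : a ∈ F.J 1) (h : Tendsto (fun t => pw t a * D * pw t (-a)) (𝓝[>] 0) (𝓝 D')) :
    D = D' := by
  have h1 : ∀ s : ℝ, 0 < s → pw s a * D * pw s (-a) = D := fun s hs => by
    have h2 : Tendsto (fun t : ℝ => t * s) (𝓝[>] 0) (𝓝[>] 0) :=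
      tendsto_nhdsWithin_iff.2 ⟨by simpa using (tendsto_id.mul_const s).mono_left (nhdsWithin_le_nhds (a := (0 : ℝ))),
        eventually_mem_nhdsWithin.mono fun t ht => mul_pos ht hs⟩
    have h3 := (h.comp h2).sub h
    rw [sub_self] at h3
    refine sub_eq_zero.1 (conj_zero F ha (h3.congr' ?_))
    filter_upwards [self_mem_nhdsWithin] with t ht
    have ht' : t ≠ 0 := ne_of_gt ht
    simp only [Function.comp]
    rw [pw_mul ht' hs.ne' a, mul_comm t s, pw_mul hs.ne' ht']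
    noncomm_ring
  exact tendsto_nhds_unique (l := 𝓝[>] (0 : ℝ))
    (tendsto_const_nhds.congr' (eventually_mem_nhdsWithin.mono fun s hs => (h1 s hs).symm)) h

/-- the KZ connection -/
def om (a b : A) (t : ℝ) : A := t⁻¹ • a + (t - 1)⁻¹ • b

theorem om_mem {a b : A} (ha : a ∈ F.J 1) (hb : b ∈ F.J 1) (t : ℝ) : om a b t ∈ F.J 1 :=
  add_mem (Submodule.smul_mem _ _ ha) (Submodule.smul_mem _ _ hb)

/-- the canonical solution of the KZ equation at `0` -/
structure Can (a b : A) (g : ℝ → A) : Prop where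
  der : ∀ t ∈ Ioo (0 : ℝ) 1, HasDerivAt g (om a b t * g t) t
  lim : Tendsto (fun t => g t * pw t (-a)) (𝓝[>] 0) (𝓝 1)

theorem ev01 : ∀ᶠ t in 𝓝[>] (0 : ℝ), t ∈ Ioo (0 : ℝ) 1 := Ioo_mem_nhdsGT one_pos

theorem half_mem : (1 / 2 : ℝ) ∈ Ioo (0 : ℝ) 1 := by constructor <;> norm_num

theorem Can.isUnit {a b : A} {g : ℝ → A} (h : Can a b g) (ha : a ∈ F.J 1) (hb : b ∈ F.J 1) {t : ℝ}
    (ht : t ∈ Ioo (0 : ℝ) 1) : IsUnit (g t) := by
  refine isUnit_of_mem F ?_
  have h1 := mem_of_tendsto' (F.J 1) (h.lim.const_sub (g t)) (ev01.mono fun s hs => by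
    have : g t - g s * pw s (-a) = g t - g s - g s * (pw s (-a) - 1) := by noncomm_ring
    rw [this]
    exact sub_mem (sub_mem_of_deriv _ isOpen_Ioo isPreconnected_Ioo h.der
      (fun u _ => mul0R F _ (om_mem F ha hb u)) ht hs) (mul0L F _ (pw_mem F (neg_mem ha) s)))
  exact h1

theorem Can.unique {a b : A} {g g' : ℝ → A} (h : Can a b g) (h' : Can a b g') (ha : a ∈ F.J 1) (hb : b ∈ F.J 1)
    {t : ℝ} (ht : t ∈ Ioo (0 : ℝ) 1) : g t = g' t := by
  obtain ⟨D, hD⟩ := ode_unique F (om_mem F ha hb) h.der h'.der ht (h'.isUnit F ha hb ht)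
  have : D = 1 := conj_lim F ha (tendsto_cancel h'.lim isUnit_one (by
    rw [one_mul]
    refine h.lim.congr' (ev01.mono fun s hs => ?_)
    have e : pw s (-a) * pw s a = 1 := by simpa using pw_mul_neg s (-a)
    simp only [hD s hs, ← mul_assoc]
    rw [mul_assoc (g' s) (pw s (-a)), e, mul_one]))
  rw [hD t ht, this, mul_one]

theorem Can.comm {a b c : A} {g : ℝ → A} (h : Can a b g) (ha : a ∈ F.J 1) (hb : b ∈ F.J 1) (h1 : Commute c a)
    (h2 : Commute c b) {t : ℝ} (ht : t ∈ Ioo (0 : ℝ) 1) : Commute c (g t) := by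
  have h' : Can a b fun t => g t + (c * g t - g t * c) := by
    refine ⟨fun t ht => ?_, ?_⟩
    · have hc : Commute c (om a b t) := (h1.smul_right _).add_right (h2.smul_right _)
      refine ((h.der t ht).add (((h.der t ht).const_mul c).sub ((h.der t ht).mul_const c))).congr_deriv ?_
      rw [← mul_assoc c, hc.eq]; noncomm_ring
    · have := h.lim.add ((h.lim.const_mul c).sub (h.lim.mul_const c))
      rw [mul_one, one_mul, sub_self, add_zero] at this
      refine this.congr fun t => ?_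
      rw [mul_assoc (g t), ← (comm_pw h1.neg_right t).eq]; noncomm_ring
  have := h'.unique F h ha hb ht
  exact sub_eq_zero.1 (add_eq_left.1 this)

theorem Can.mul {a b a' b' : A} {g g' : ℝ → A} (h : Can a b g) (h' : Can a' b' g') (ha : a ∈ F.J 1)
    (hb : b ∈ F.J 1) (ha' : a' ∈ F.J 1) (hb' : b' ∈ F.J 1) (h1 : Commute a a') (h2 : Commute a b')
    (h3 : Commute b a') (h4 : Commute b b') : Can (a + a') (b + b') fun t => g t * g' t := by
  refine ⟨fun t ht => ?_, ?_⟩
  · have hc : Commute (om a' b' t) (g t) := h.comm F ha hb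
      ((h1.symm.smul_left _).add_left (h2.symm.smul_left _)) ((h3.symm.smul_left _).add_left (h4.symm.smul_left _)) ht
    refine ((h.der t ht).mul (h'.der t ht)).congr_deriv ?_
    rw [← mul_assoc (g t), ← hc.eq]
    simp only [om, smul_add]; noncomm_ring
  · have := h.lim.mul h'.lim
    rw [mul_one] at this
    refine this.congr' (ev01.mono fun t ht => ?_)
    have hc : Commute (pw t (-a)) (g' t) :=
      h'.comm F ha' hb' (comm_pw h1.symm.neg_right t).symm (comm_pw h2.symm.neg_right t).symm ht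
    simp only
    rw [neg_add, pw_add h1.neg_left.neg_right, mul_assoc (g t), ← mul_assoc (pw t (-a)), hc.eq]
    noncomm_ring

theorem Can.map {B : Type} [NormedRing B] [NormedAlgebra ℝ B] [FiniteDimensional ℝ B] (φ : A →ₐ[ℝ] B)
    {a b : A} {g : ℝ → A} (h : Can a b g) : Can (φ a) (φ b) fun t => φ (g t) := by
  refine ⟨fun t ht => ?_, ?_⟩
  · exact ((LinearMap.toContinuousLinearMap φ.toLinearMap).hasFDerivAt.comp_hasDerivAt t (h.der t ht)).congr_deriv
      (by simp [om])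
  · have := (φ.toLinearMap.continuous_of_finiteDimensional.tendsto 1).comp h.lim
    simp only [Function.comp_def, AlgHom.toLinearMap_apply, map_mul, map_pw, map_neg, map_one] at this
    exact this

theorem can_left (a : A) : Can a 0 fun t => pw t a :=
  ⟨fun t ht => by simpa [om] using hasDerivAt_pw (hasDerivAt_id t) ht.1.ne' a, by simp [pw_mul_neg]⟩

theorem hasDerivAt_pw_one_sub (b : A) {t : ℝ} (ht : t < 1) :
    HasDerivAt (fun s => pw (1 - s) b) ((t - 1)⁻¹ • (b * pw (1 - t) b)) t := by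
  refine (hasDerivAt_pw ((hasDerivAt_id t).const_sub 1) (sub_pos.2 ht).ne' b).congr_deriv ?_
  rw [id, ← neg_sub 1 t, inv_neg, neg_div, one_div]

theorem can_right (b : A) : Can 0 b fun t => pw (1 - t) b := by
  refine ⟨fun t ht => by simpa [om] using hasDerivAt_pw_one_sub b ht.2, ?_⟩
  simpa using (hasDerivAt_pw_one_sub b one_pos).continuousAt.tendsto.mono_left nhdsWithin_le_nhds

theorem Can.refl {a b : A} {g : ℝ → A} (h : Can b a g) {t : ℝ} (ht : t ∈ Ioo (0 : ℝ) 1) :
    HasDerivAt (fun t => g (1 - t)) (om a b t * g (1 - t)) t := by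
  refine (HasDerivAt.scomp (g₁ := g) (h := fun s => 1 - s) t (h.der (1 - t) ⟨by linarith [ht.2], by linarith [ht.1]⟩)
    ((hasDerivAt_id t).const_sub 1)).congr_deriv ?_
  rw [om, om, sub_sub_cancel_left, ← neg_sub 1 t, inv_neg, inv_neg]
  simp only [neg_smul, one_smul, add_mul, neg_mul]; abel

end Crest.Agent.R10.An
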