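import Crest.Agent.R10.E.An1

/-! # Row 10, block E-an, step 2: the two-variable solution at a vertex of the pentagon (Picard on coefficients) -/

set_option autoImplicit false
set_option linter.unusedSectionVars false

open Set Filter
open scoped Topology

noncomputable section
namespace Crest.Agent.R10.An

section alg
variable {A : Type} [Ring A] [Algebra ℝ A] {N : ℕ} (F : Filt ℝ A N)

/-- operators on coefficient families -/
abbrev Op2 (A : Type) [Ring A] [Algebra ℝ A] : Type := Module.End ℝ (ℕ × ℕ → A)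

/-- multiplication of the coefficients by real weights -/
def dg (w : ℕ × ℕ → ℝ) : Op2 A where
  toFun h m := w m • h m
  map_add' h h' := by funext m; simp
  map_smul' r h := by funext m; simp [smul_comm r]

def lm (c : A) : Op2 A where
  toFun h m := c * h m
  map_add' h h' := by funext m; simp [mul_add]
  map_smul' r h := by funext m; simp

def rm (c : A) : Op2 A where
  toFun h m := h m * c
  map_add' h h' := by funext m; simp [add_mul]
  map_smul' r h := by funext m; simp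

def sh (e : ℕ × ℕ) : Op2 A where
  toFun h m := if e ≤ m then h (m - e) else 0
  map_add' h h' := by funext m; by_cases hm : e ≤ m <;> simp [hm]
  map_smul' r h := by funext m; by_cases hm : e ≤ m <;> simp [hm]

@[simp] theorem dg_apply (w : ℕ × ℕ → ℝ) (h : ℕ × ℕ → A) (m : ℕ × ℕ) : dg w h m = w m • h m := rfl
@[simp] theorem lm_apply (c : A) (h : ℕ × ℕ → A) (m : ℕ × ℕ) : lm c h m = c * h m := rfl
@[simp] theorem rm_apply (c : A) (h : ℕ × ℕ → A) (m : ℕ × ℕ) : rm c h m = h m * c := rfl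
theorem sh_apply (e : ℕ × ℕ) (h : ℕ × ℕ → A) (m : ℕ × ℕ) : sh e h m = if e ≤ m then h (m - e) else 0 := rfl

theorem op_ext {X Y : Op2 A} (h : ∀ f m, X f m = Y f m) : X = Y := LinearMap.ext fun f => funext (h f)

theorem sh_mul (e e' : ℕ × ℕ) : (sh e : Op2 A) * sh e' = sh (e + e') := op_ext fun f m => by
  obtain ⟨a, b⟩ := e; obtain ⟨c, d⟩ := e'; obtain ⟨i, j⟩ := m
  simp only [Module.End.mul_apply, sh_apply, Prod.mk_le_mk, Prod.mk_sub_mk, Prod.mk_add_mk, Nat.sub_sub]
  split_ifs <;> first | rfl | omega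

theorem deg_lt {e m : ℕ × ℕ} (he : e ≠ 0) (h : e ≤ m) : (m - e).1 + (m - e).2 < m.1 + m.2 := by
  obtain ⟨a, b⟩ := e; obtain ⟨i, j⟩ := m
  simp only [Prod.mk_le_mk, Prod.mk_sub_mk, ne_eq, Prod.mk_eq_zero] at *
  omega

theorem deg_ind {e : ℕ × ℕ} (he : e ≠ 0) {p : ℕ × ℕ → Prop} (h : ∀ m, (e ≤ m → p (m - e)) → p m) (m : ℕ × ℕ) :
    p m := by
  induction hn : m.1 + m.2 using Nat.strong_induction_on generalizing m with
  | _ n ih => exact h m fun hm => ih _ (hn ▸ deg_lt he hm) _ rfl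

/-- solution of `u - sh e u = h` -/
def geoF (e : ℕ × ℕ) (h : ℕ × ℕ → A) (m : ℕ × ℕ) : A :=
  h m + if _H : e ≠ 0 ∧ e ≤ m then geoF e h (m - e) else 0
termination_by m.1 + m.2
decreasing_by exact deg_lt _H.1 _H.2

theorem isUnit_sh {e : ℕ × ℕ} (he : e ≠ 0) : IsUnit (1 - sh e : Op2 A) := by
  refine (Module.End.isUnit_iff _).2 ⟨(injective_iff_map_eq_zero _).2 fun h hh => funext (deg_ind he fun m hm => ?_),
    fun h => ⟨geoF e h, funext fun m => ?_⟩⟩
  · have := congrFun hh m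
    simp only [LinearMap.sub_apply, Module.End.one_apply, Pi.sub_apply, sh_apply, Pi.zero_apply] at this ⊢
    split_ifs at this with h1
    · rwa [hm h1, Pi.zero_apply, sub_zero] at this
    · rwa [sub_zero] at this
  · simp only [LinearMap.sub_apply, Module.End.one_apply, Pi.sub_apply, sh_apply]
    rw [geoF]
    by_cases h1 : e ≤ m <;> simp [he, h1]

/-- multiplication by `z^e / (1 - z^e)` -/
def geo (e : ℕ × ℕ) : Op2 A := Ring.inverse (1 - sh e) - 1

theorem geo_mul {e : ℕ × ℕ} (he : e ≠ 0) : (geo e : Op2 A) * (1 - sh e) = sh e := by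
  rw [geo, sub_mul, Ring.inverse_mul_cancel _ (isUnit_sh he), one_mul, sub_sub_cancel]

theorem geo_eq {e : ℕ × ℕ} (he : e ≠ 0) (h : ℕ × ℕ → A) : geo e h = sh e (h + geo e h) := by
  have : (1 - sh e : Op2 A) * geo e = sh e := by
    rw [geo, mul_sub, Ring.mul_inverse_cancel _ (isUnit_sh he), mul_one, sub_sub_cancel]
  have := LinearMap.congr_fun this h
  simp only [Module.End.mul_apply, LinearMap.sub_apply, Module.End.one_apply] at this
  rw [map_add, ← this, sub_add_cancel]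

theorem geo_apply {e : ℕ × ℕ} (he : e ≠ 0) (h : ℕ × ℕ → A) (m : ℕ × ℕ) :
    geo e h m = if e ≤ m then h (m - e) + geo e h (m - e) else 0 := congrFun (geo_eq he h) m

theorem comm_geo {e : ℕ × ℕ} (he : e ≠ 0) {X : Op2 A} (h : Commute X (sh e)) : Commute X (geo e) := by
  obtain ⟨u, hu⟩ := isUnit_sh (A := A) he
  have h1 : Commute X u := hu ▸ (Commute.one_right X).sub_right h
  rw [geo, ← hu, Ring.inverse_unit]
  exact h1.units_inv_right.sub_right (Commute.one_right X)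

theorem comm_sh (e e' : ℕ × ℕ) : Commute (sh e : Op2 A) (sh e') := by
  rw [Commute, SemiconjBy, sh_mul, sh_mul, add_comm]

theorem geo_geo {e e' : ℕ × ℕ} (he : e ≠ 0) (he' : e' ≠ 0) : Commute (geo e : Op2 A) (geo e') :=
  comm_geo he' (comm_geo he (comm_sh e' e)).symm

theorem lm_geo {e : ℕ × ℕ} (he : e ≠ 0) (c : A) : Commute (lm c) (geo e) :=
  comm_geo he (op_ext fun f m => by by_cases h : e ≤ m <;> simp [sh_apply, h])

theorem rm_geo {e : ℕ × ℕ} (he : e ≠ 0) (c : A) : Commute (rm c) (geo e) :=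
  comm_geo he (op_ext fun f m => by by_cases h : e ≤ m <;> simp [sh_apply, h])

theorem dg_geo {e : ℕ × ℕ} (he : e ≠ 0) {w : ℕ × ℕ → ℝ} (hw : ∀ m, e ≤ m → w (m - e) = w m) :
    Commute (dg w : Op2 A) (geo e) :=
  comm_geo he (op_ext fun f m => by by_cases h : e ≤ m <;> simp [sh_apply, h, hw])

theorem ex_ne : ((1, 0) : ℕ × ℕ) ≠ 0 := by decide
theorem ey_ne : ((0, 1) : ℕ × ℕ) ≠ 0 := by decide
theorem ez_ne : ((1, 1) : ℕ × ℕ) ≠ 0 := by decide

theorem geo_abs {E : Type} [Ring E] {gx gy gz x y z : E} (hx : gx * (1 - x) = x) (hy : gy * (1 - y) = y)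
    (hz : gz * (1 - z) = z) (e : x * y = z) (e' : y * x = z) (c1 : Commute gx gz) (c2 : Commute gy gz) :
    (gz + gx * gz + gy * gz) * (1 - x) * (1 - y) = gx * gy * (1 - x) * (1 - y) := by
  rw [c1.eq, c2.eq]
  linear_combination (norm := noncomm_ring) hz + gz * hx * (1 - y) + gz * hy * (1 - x) - gx * hy * (1 - x) -
    hx * y - e + (gz * gy - gx * gy - gx) * (e - e') - gz * e'

theorem geo_id : (geo (1, 1) : Op2 A) + geo (1, 0) * geo (1, 1) + geo (0, 1) * geo (1, 1) =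
    geo (1, 0) * geo (0, 1) :=
  (isUnit_sh ex_ne).mul_right_cancel ((isUnit_sh ey_ne).mul_right_cancel (geo_abs (geo_mul ex_ne) (geo_mul ey_ne)
    (geo_mul ez_ne) (sh_mul _ _) (sh_mul _ _) (geo_geo ex_ne ez_ne) (geo_geo ey_ne ez_ne)))

theorem flat_abs {E L : Type} [Ring E] (l : L → E) {gx gy gz tx ty : E} {c₁ c₂ p q r : L}
    (hx : ∀ c, Commute (l c) gx) (hy : ∀ c, Commute (l c) gy) (hz : ∀ c, Commute (l c) gz) (g1 : Commute gy gx)
    (g2 : Commute gz gx) (g3 : Commute gz gy) (gid : gz + gx * gz + gy * gz = gx * gy) (d0 : Commute tx ty)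
    (d1 : Commute tx gy) (d2 : Commute ty gx) (d3 : Commute (tx - ty) gz) (dx : ∀ c, Commute tx (l c))
    (dy : ∀ c, Commute ty (l c)) (b1 : l c₁ * l c₂ = l c₂ * l c₁) (b2 : l c₁ * l q = l q * l c₁)
    (b3 : l c₂ * l p = l p * l c₂) (b4 : l c₁ * l r - l r * l c₁ - (l c₂ * l r - l r * l c₂) = l p * l q - l q * l p)
    (b5 : l p * l q + l p * l r = l q * l p + l r * l p) (b6 : l q * l p + l q * l r = l p * l q + l r * l q) :
    Commute (tx + (-l c₁ + gx * l p + gz * l r)) (ty + (-l c₂ + gy * l q + gz * l r)) := by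
  have a1 := ((dx c₂).neg_right.add_right (d1.mul_right (dx q))).eq
  have a2 := ((dy c₁).neg_right.add_right (d2.mul_right (dy p))).eq
  have a3 := (d3.mul_right ((dx r).sub_left (dy r))).eq
  have a4 : (-l c₁ + gx * l p + gz * l r) * (-l c₂ + gy * l q + gz * l r) =
      (-l c₂ + gy * l q + gz * l r) * (-l c₁ + gx * l p + gz * l r) := by
    simp only [mul_add, add_mul, neg_mul, mul_neg, mul_assoc, (hx _).left_comm, (hy _).left_comm, (hz _).left_comm,
      g1.left_comm, g2.left_comm, g3.left_comm]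
    linear_combination (norm := noncomm_ring) b1 - gy * b2 + gx * b3 - gz * b4 + gx * gz * b5 - gy * gz * b6 -
      gid * (l p * l q - l q * l p)
  rw [Commute, SemiconjBy]
  linear_combination (norm := noncomm_ring) d0.eq + a1 - a2 + a3 + a4

/-- the non-Euler part of a covariant derivative -/
def Bop (C P R : A) (e : ℕ × ℕ) : Op2 A := lm C - rm C - (geo e * lm P + geo (1, 1) * lm R)

/-- the flatness relations -/
structure Rel (C₁ C₂ P Q R : A) : Prop where
  h12 : Commute C₁ C₂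
  h1 : Commute C₁ Q
  h2 : Commute C₂ P
  hR : C₁ * R - R * C₁ - (C₂ * R - R * C₂) = P * Q - Q * P
  hP : Commute P (Q + R)
  hQ : Commute Q (P + R)

theorem flat {C₁ C₂ P Q R : A} (h : Rel C₁ C₂ P Q R) :
    Commute (dg (fun m => m.1) - Bop C₁ P R (1, 0)) (dg (fun m => m.2) - Bop C₂ Q R (0, 1)) := by
  have e : ∀ (w : ℕ × ℕ → ℝ) (C P : A) (e : ℕ × ℕ), dg w - Bop C P R e =
      (dg w + (-lm C + geo e * lm P + geo (1, 1) * lm R)) + rm C := fun w C P e => by rw [Bop]; abel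
  have rl : ∀ c d : A, Commute (rm c) (lm d) := fun c d => op_ext fun f m => by simp [mul_assoc]
  have rd : ∀ (c : A) w, Commute (rm c) (dg w) := fun c d => op_ext fun f m => by simp
  have dl : ∀ (c : A) w, Commute (dg w) (lm c) := fun c d => op_ext fun f m => by simp
  have rr : ∀ (c : A) (w : ℕ × ℕ → ℝ) (C P : A) (e : ℕ × ℕ), e ≠ 0 →
      Commute (rm c) (dg w + (-lm C + geo e * lm P + geo (1, 1) * lm R)) := fun c w C P e he =>
    (rd c w).add_right (((rl _ _).neg_right.add_right ((rm_geo he _).mul_right (rl _ _))).add_right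
      ((rm_geo ez_ne _).mul_right (rl _ _)))
  rw [e, e]
  refine Commute.add_left (Commute.add_right ?_ (rr _ _ _ _ _ ex_ne).symm) ((rr _ _ _ _ _ ey_ne).add_right
    (op_ext fun f m => by simp [mul_assoc, h.h12.eq]))
  have d0 : Commute (dg (fun m => m.1) : Op2 A) (dg fun m => m.2) := op_ext fun f m => by simp [smul_comm (m.1 : ℝ)]
  have d1 : Commute (dg (fun m => m.1) : Op2 A) (geo (0, 1)) := dg_geo ey_ne fun m _ => by simp
  have d2 : Commute (dg (fun m => m.2) : Op2 A) (geo (1, 0)) := dg_geo ex_ne fun m _ => by simp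
  have d3 : Commute (dg (fun m => m.1) - dg (fun m => m.2) : Op2 A) (geo (1, 1)) := by
    have : (dg (fun m => m.1) - dg (fun m => m.2) : Op2 A) = dg fun m => m.1 - m.2 :=
      op_ext fun f m => by simp [sub_smul]
    rw [this]
    exact dg_geo ez_ne fun m hm => by
      simp only [Prod.fst_sub, Prod.snd_sub, Nat.cast_sub hm.1, Nat.cast_sub hm.2]; ring
  have l : ∀ {a b c d : A}, a * b = c * d → lm a * lm b = lm c * lm d := fun h =>
    op_ext fun f m => by simp [← mul_assoc, h]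
  have b1 := l h.h12.eq
  have b2 := l h.h1.eq
  have b3 := l h.h2.eq
  have b4 : lm C₁ * lm R - lm R * lm C₁ - (lm C₂ * lm R - lm R * lm C₂) = lm P * lm Q - lm Q * lm P :=
    op_ext fun f m => by simp [← mul_assoc, ← sub_mul, h.hR]
  have b5 : lm P * lm Q + lm P * lm R = lm Q * lm P + lm R * lm P :=
    op_ext fun f m => by simp [← mul_assoc, ← add_mul, ← mul_add, h.hP.eq]
  have b6 : lm Q * lm P + lm Q * lm R = lm P * lm Q + lm R * lm Q :=
    op_ext fun f m => by simp [← mul_assoc, ← add_mul, ← mul_add, h.hQ.eq]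
  exact flat_abs lm (lm_geo ex_ne) (lm_geo ey_ne) (lm_geo ez_ne) (geo_geo ey_ne ex_ne) (geo_geo ez_ne ex_ne)
    (geo_geo ez_ne ey_ne) geo_id d0 d1 d2 d3 (fun c => dl c _) (fun c => dl c _) b1 b2 b3 b4 b5 b6

theorem geo_mem (S : Submodule ℝ A) {e : ℕ × ℕ} (he : e ≠ 0) {h : ℕ × ℕ → A} (hh : ∀ m, h m ∈ S) (m : ℕ × ℕ) :
    geo e h m ∈ S := by
  refine deg_ind he (p := fun m => geo e h m ∈ S) (fun m hm => ?_) m
  rw [geo_apply he]
  split_ifs with h1
  · exact add_mem (hh _) (hm h1)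
  · exact zero_mem _

theorem geo_zero {e : ℕ × ℕ} (he : e ≠ 0) (h : ℕ × ℕ → A) : geo e h 0 = 0 := by
  rw [geo_apply he, if_neg fun h => he (le_antisymm h (zero_le))]

theorem Bop_apply (C P R : A) (e : ℕ × ℕ) (h : ℕ × ℕ → A) (m : ℕ × ℕ) :
    Bop C P R e h m = C * h m - h m * C - (geo e (lm P h) m + geo (1, 1) (lm R h) m) := rfl

theorem Bop_mem {C P R : A} (hC : C ∈ F.J 1) (hP : P ∈ F.J 1) (hR : R ∈ F.J 1) {e : ℕ × ℕ} (he : e ≠ 0) {k : ℕ}
    {h : ℕ × ℕ → A} (hh : ∀ m, h m ∈ F.J k) (m : ℕ × ℕ) : Bop C P R e h m ∈ F.J (k + 1) :=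
  sub_mem (sub_mem (mulL F hC (hh m)) (F.mul (hh m) hC))
    (add_mem (geo_mem _ he (fun m => mulL F hP (hh m)) m) (geo_mem _ ez_ne (fun m => mulL F hR (hh m)) m))

/-- the Picard operator -/
def Mop (C₁ C₂ P Q R : A) : Op2 A := dg (fun m => ((m.1 : ℝ) + m.2)⁻¹) * (Bop C₁ P R (1, 0) + Bop C₂ Q R (0, 1))

theorem picard {C₁ C₂ P Q R : A} (h : Rel C₁ C₂ P Q R) (h1 : C₁ ∈ F.J 1) (h2 : C₂ ∈ F.J 1) (hP : P ∈ F.J 1)
    (hQ : Q ∈ F.J 1) (hR : R ∈ F.J 1) (S : Submodule ℝ (ℕ × ℕ → A)) (hδ : Pi.single 0 1 ∈ S)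
    (hS : ∀ f ∈ S, Mop C₁ C₂ P Q R f ∈ S) :
    ∃ H ∈ S, H 0 = 1 ∧ (∀ m, (H - Pi.single 0 1 : ℕ × ℕ → A) m ∈ F.J 1) ∧
      dg (fun m => m.1) H = Bop C₁ P R (1, 0) H ∧ dg (fun m => m.2) H = Bop C₂ Q R (0, 1) H := by
  set M := Mop C₁ C₂ P Q R with hM
  have hMk : ∀ k (f : ℕ × ℕ → A), (∀ m, f m ∈ F.J k) → ∀ m, M f m ∈ F.J (k + 1) := fun k f hf m =>
    Submodule.smul_mem _ _ (add_mem (Bop_mem F h1 hP hR ex_ne hf m) (Bop_mem F h2 hQ hR ey_ne hf m))
  have hpow : ∀ k (f : ℕ × ℕ → A) m, (M ^ k) f m ∈ F.J k := by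
    intro k f
    induction k with
    | zero => exact fun m => mem0 F _
    | succ k ih => rw [pow_succ']; exact hMk k _ ih
  have hN : M ^ (N + 1) = 0 := op_ext fun f m => eq_zero_of_mem F (hpow _ f m)
  have hu : (∑ k ∈ Finset.range (N + 1), M ^ k) * (1 - M) = 1 := by rw [geom_sum_mul_neg, hN, sub_zero]
  have hu' : (1 - M) * (∑ k ∈ Finset.range (N + 1), M ^ k) = 1 := by rw [mul_neg_geom_sum, hN, sub_zero]
  set H := (∑ k ∈ Finset.range (N + 1), M ^ k) (Pi.single 0 1) with hH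
  have e1 : H - Pi.single 0 1 = M H := by
    have := LinearMap.congr_fun hu' (Pi.single 0 1)
    simp only [Module.End.mul_apply, LinearMap.sub_apply, Module.End.one_apply, ← hH] at this
    rw [← this, sub_sub_cancel]
  have hM0 : ∀ f, M f 0 = 0 := fun f => by simp [hM, Mop]
  have H0 : H 0 = 1 := by simpa [hM0, sub_eq_zero] using congrFun e1 0
  have B0 : ∀ (C P : A) (e : ℕ × ℕ), e ≠ 0 → Bop C P R e H 0 = 0 := fun C P e he => by
    simp [Bop_apply, H0, geo_zero he, geo_zero ez_ne]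
  have hm0 : ∀ m : ℕ × ℕ, m ≠ 0 → (m.1 : ℝ) + m.2 ≠ 0 := fun m hm h => hm (by
    have : m.1 + m.2 = 0 := by exact_mod_cast h
    exact Prod.ext (by simp; omega) (by simp; omega))
  set X := dg (fun m => m.1) - Bop C₁ P R (1, 0) with hX
  set Y := dg (fun m => m.2) - Bop C₂ Q R (0, 1) with hY
  have hXY : ∀ f m, (X + Y) f m = ((m.1 : ℝ) + m.2) • f m - (Bop C₁ P R (1, 0) + Bop C₂ Q R (0, 1)) f m :=
    fun f m => by simp [hX, hY, add_smul]; abel
  have e2 : (X + Y) H = 0 := funext fun m => by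
    rw [hXY]
    by_cases hm : m = 0
    · simp [hm, B0 _ _ _ ex_ne, B0 _ _ _ ey_ne]
    · have := congrFun e1 m
      rw [Pi.sub_apply, Pi.single_eq_of_ne hm, sub_zero] at this
      rw [this, hM, Mop, Module.End.mul_apply, dg_apply, smul_inv_smul₀ (hm0 m hm), sub_self, Pi.zero_apply]
  have e3 : X H = 0 := by
    have k1 : (X + Y) (X H) = 0 := by
      rw [← Module.End.mul_apply, ((Commute.refl X).add_left (flat h).symm).eq, Module.End.mul_apply, e2, map_zero]
    have k2 : (1 - M) (X H) = 0 := funext fun m => by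
      by_cases hm : m = 0
      · simp [hm, hM0, hX, B0 _ _ _ ex_ne]
      · have := congrFun k1 m
        rw [hXY, Pi.zero_apply, sub_eq_zero] at this
        rw [LinearMap.sub_apply, Pi.sub_apply, hM, Mop, Module.End.mul_apply, dg_apply, ← this,
          inv_smul_smul₀ (hm0 m hm), Module.End.one_apply, sub_self, Pi.zero_apply]
    rw [← Module.End.one_apply (R := ℝ) (X H), ← hu, Module.End.mul_apply, k2, map_zero]
  rw [LinearMap.add_apply, e3, zero_add] at e2
  refine ⟨H, ?_, H0, fun m => e1 ▸ hMk 0 H (fun m => mem0 F _) m, sub_eq_zero.1 e3, sub_eq_zero.1 e2⟩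
  rw [hH, LinearMap.sum_apply]
  refine Submodule.sum_mem _ fun k _ => ?_
  induction k with
  | zero => exact hδ
  | succ k ih => rw [pow_succ']; exact hS _ (ih (by simp_all; omega))

end alg

end Crest.Agent.R10.An
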