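import Crest.Agent.R10.E.An2

/-! # Row 10, block E-an, step 3: evaluation of the power series -/

set_option autoImplicit false
set_option linter.unusedSectionVars false

open Set Filter
open scoped Topology

noncomputable section
namespace Crest.Agent.R10.An

variable {A : Type} [NormedRing A] [NormedAlgebra ℝ A] [FiniteDimensional ℝ A] {N : ℕ} (F : Filt ℝ A N)

attribute [local instance] complete

/-- bounded families -/
def Bdd (A : Type) [NormedRing A] [NormedAlgebra ℝ A] : Submodule ℝ (ℕ × ℕ → A) where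
  carrier := {h | ∃ C, ∀ m, ‖h m‖ ≤ C}
  add_mem' := fun ⟨C, h⟩ ⟨C', h'⟩ => ⟨C + C', fun m => (norm_add_le _ _).trans (add_le_add (h m) (h' m))⟩
  zero_mem' := ⟨0, fun m => by simp⟩
  smul_mem' := fun r _ ⟨C, h⟩ => ⟨‖r‖ * C, fun m =>
    (norm_smul_le r _).trans (mul_le_mul_of_nonneg_left (h m) (norm_nonneg _))⟩

theorem lm_bdd (c : A) {h : ℕ × ℕ → A} (hh : h ∈ Bdd A) : lm c h ∈ Bdd A :=
  let ⟨C, hC⟩ := hh
  ⟨‖c‖ * C, fun m => (norm_mul_le _ _).trans (mul_le_mul_of_nonneg_left (hC m) (norm_nonneg _))⟩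

theorem rm_bdd (c : A) {h : ℕ × ℕ → A} (hh : h ∈ Bdd A) : rm c h ∈ Bdd A :=
  let ⟨C, hC⟩ := hh
  ⟨C * ‖c‖, fun m => (norm_mul_le _ _).trans (mul_le_mul_of_nonneg_right (hC m) (norm_nonneg _))⟩

theorem geo_le {e : ℕ × ℕ} (he : e ≠ 0) {h : ℕ × ℕ → A} {C : ℝ} (hC : ∀ m, ‖h m‖ ≤ C) (m : ℕ × ℕ) :
    ‖geo e h m‖ ≤ ((m.1 : ℝ) + m.2) * C := by
  have h0 : 0 ≤ C := (norm_nonneg _).trans (hC 0)
  refine deg_ind he (p := fun m => ‖geo e h m‖ ≤ ((m.1 : ℝ) + m.2) * C) (fun m hm => ?_) m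
  rw [geo_apply he]
  split_ifs with h1
  · have h2 : (((m - e).1 : ℝ) + (m - e).2) + 1 ≤ m.1 + m.2 := by exact_mod_cast deg_lt he h1
    nlinarith [norm_add_le (h (m - e)) (geo e h (m - e)), hC (m - e), hm h1]
  · rw [norm_zero]; positivity

theorem dg_bdd {w : ℕ × ℕ → ℝ} {h : ℕ × ℕ → A} {C : ℝ} (H : ∀ m, |w m| * ‖h m‖ ≤ C) : dg w h ∈ Bdd A :=
  ⟨C, fun m => (norm_smul_le _ _).trans (H m)⟩

theorem Mop_bdd (C₁ C₂ P Q R : A) (h : ℕ × ℕ → A) (hh : h ∈ Bdd A) : Mop C₁ C₂ P Q R h ∈ Bdd A := by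
  have hw : ∀ m : ℕ × ℕ, |((m.1 : ℝ) + m.2)⁻¹| ≤ 1 := fun m => by
    rw [abs_of_nonneg (by positivity)]; exact_mod_cast Nat.cast_inv_le_one (α := ℝ) (m.1 + m.2)
  have k1 : ∀ f ∈ Bdd A, dg (fun m => ((m.1 : ℝ) + m.2)⁻¹) f ∈ Bdd A := fun f ⟨C, hC⟩ =>
    dg_bdd fun m => (mul_le_of_le_one_left (norm_nonneg _) (hw m)).trans (hC m)
  have k2 : ∀ e ≠ 0, ∀ f ∈ Bdd A, dg (fun m => ((m.1 : ℝ) + m.2)⁻¹) (geo e f) ∈ Bdd A := fun e he f ⟨C, hC⟩ =>
    dg_bdd (C := C) fun m => by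
      have h0 : 0 ≤ C := (norm_nonneg _).trans (hC 0)
      refine (mul_le_mul_of_nonneg_left (geo_le he hC m) (abs_nonneg _)).trans ?_
      rw [abs_of_nonneg (by positivity), ← mul_assoc]
      exact mul_le_of_le_one_left h0 (inv_mul_le_one_of_le₀ le_rfl (by positivity))
  simp only [Mop, Bop, Module.End.mul_apply, LinearMap.add_apply, LinearMap.sub_apply, map_add, map_sub]
  exact add_mem (sub_mem (sub_mem (k1 _ (lm_bdd _ hh)) (k1 _ (rm_bdd _ hh)))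
    (add_mem (k2 _ ex_ne _ (lm_bdd _ hh)) (k2 _ ez_ne _ (lm_bdd _ hh))))
    (sub_mem (sub_mem (k1 _ (lm_bdd _ hh)) (k1 _ (rm_bdd _ hh)))
    (add_mem (k2 _ ey_ne _ (lm_bdd _ hh)) (k2 _ ez_ne _ (lm_bdd _ hh))))

/-- the monomial -/
def mon (z : ℝ × ℝ) (m : ℕ × ℕ) : ℝ := z.1 ^ m.1 * z.2 ^ m.2

/-- evaluation -/
def evl (h : ℕ × ℕ → A) (z : ℝ × ℝ) : A := ∑' m, mon z m • h m

theorem summ1 {r : ℝ} (h0 : 0 ≤ r) (hr : r < 1) : Summable fun i : ℕ => ((i : ℝ) + 1) * r ^ i := by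
  have h1 := summable_pow_mul_geometric_of_norm_lt_one 1 (r := r) (by rwa [Real.norm_of_nonneg h0])
  simpa [add_mul] using h1.add (summable_geometric_of_lt_one h0 hr)

theorem summ2 {r : ℝ} (h0 : 0 ≤ r) (hr : r < 1) :
    Summable fun m : ℕ × ℕ => (((m.1 : ℝ) + 1) * r ^ m.1) * (((m.2 : ℝ) + 1) * r ^ m.2) :=
  (summ1 h0 hr).mul_of_nonneg (summ1 h0 hr) (fun _ => by positivity) fun _ => by positivity

theorem abs_mon_le {z : ℝ × ℝ} {r : ℝ} (hz : ‖z‖ ≤ r) (m : ℕ × ℕ) : |mon z m| ≤ r ^ m.1 * r ^ m.2 := by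
  rw [mon, abs_mul, abs_pow, abs_pow]
  have h1 : |z.1| ≤ r := (norm_fst_le z).trans hz
  have h2 : |z.2| ≤ r := (norm_snd_le z).trans hz
  have h0 : 0 ≤ r := (norm_nonneg _).trans hz
  gcongr

theorem summable_evl {h : ℕ × ℕ → A} {C : ℝ} (hC : ∀ m, ‖h m‖ ≤ ((m.1 : ℝ) + m.2 + 1) * C) {z : ℝ × ℝ}
    (hz : ‖z‖ < 1) : Summable fun m => mon z m • h m := by
  have h0 : 0 ≤ C := by simpa using (norm_nonneg _).trans (hC 0)
  refine .of_norm_bounded ((summ2 (norm_nonneg z) hz).mul_right C) fun m => (norm_smul_le _ _).trans ?_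
  calc ‖mon z m‖ * ‖h m‖ ≤ ‖z‖ ^ m.1 * ‖z‖ ^ m.2 * ((((m.1 : ℝ) + 1) * (m.2 + 1)) * C) := by
        refine mul_le_mul (abs_mon_le le_rfl m) ((hC m).trans (mul_le_mul_of_nonneg_right ?_ h0)) (norm_nonneg _)
          (by positivity)
        nlinarith [mul_nonneg (Nat.cast_nonneg (α := ℝ) m.1) (Nat.cast_nonneg (α := ℝ) m.2)]
    _ = _ := by ring

theorem hasSum_bdd {h : ℕ × ℕ → A} (hh : h ∈ Bdd A) {z : ℝ × ℝ} (hz : ‖z‖ < 1) :
    HasSum (fun m => mon z m • h m) (evl h z) :=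
  let ⟨C, hC⟩ := hh
  (summable_evl (C := C) (fun m => (hC m).trans (le_mul_of_one_le_left ((norm_nonneg _).trans (hC 0))
    (le_add_of_nonneg_left (by positivity)))) hz).hasSum

theorem hasSum_geo {e : ℕ × ℕ} (he : e ≠ 0) {h : ℕ × ℕ → A} (hh : h ∈ Bdd A) {z : ℝ × ℝ} (hz : ‖z‖ < 1)
    (h1 : 1 - mon z e ≠ 0) : HasSum (fun m => mon z m • geo e h m) ((mon z e / (1 - mon z e)) • evl h z) := by
  obtain ⟨C, hC⟩ := id hh
  have h0 : 0 ≤ C := (norm_nonneg _).trans (hC 0)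
  have s1 : HasSum _ (evl (geo e h) z) :=
    (summable_evl (C := C) (fun m => (geo_le he hC m).trans (by nlinarith)) hz).hasSum
  have s2 := ((hasSum_bdd hh hz).add s1).const_smul (mon z e)
  have s3 : HasSum (fun m => mon z m • geo e h m) (mon z e • (evl h z + evl (geo e h) z)) := by
    refine ((add_left_injective e).hasSum_iff fun m hm => ?_).1 (s2.congr_fun fun m => ?_)
    · rw [geo_apply he, if_neg fun h => hm ⟨m - e, tsub_add_cancel_of_le h⟩, smul_zero]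
    · simp only [Function.comp]
      rw [geo_apply he _ (m + e), if_pos le_add_self, add_tsub_cancel_right, ← smul_add, smul_smul]
      simp only [mon, Prod.fst_add, Prod.snd_add, pow_add]
      congr 1; ring
  have e1 := s1.unique s3
  have e2 : (1 - mon z e) • evl (geo e h) z = mon z e • evl h z := by
    rw [sub_smul, one_smul, sub_eq_iff_eq_add, ← smul_add]; exact e1
  rwa [div_eq_inv_mul, mul_smul, ← e2, inv_smul_smul₀ h1]

theorem hasSum_Bop (C P R : A) {e : ℕ × ℕ} (he : e ≠ 0) {h : ℕ × ℕ → A} (hh : h ∈ Bdd A) {z : ℝ × ℝ}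
    (hz : ‖z‖ < 1) (h1 : 1 - mon z e ≠ 0) (h2 : 1 - mon z (1, 1) ≠ 0) :
    HasSum (fun m => mon z m • Bop C P R e h m) (C * evl h z - evl h z * C -
      ((mon z e / (1 - mon z e)) • P + (mon z (1, 1) / (1 - mon z (1, 1))) • R) * evl h z) := by
  have s := hasSum_bdd hh hz
  have el : ∀ c : A, evl (lm c h) z = c * evl h z := fun c =>
    (hasSum_bdd (lm_bdd c hh) hz).unique ((s.mul_left c).congr_fun fun m => by simp)
  have := ((s.mul_left C).sub (s.mul_right C)).sub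
    ((hasSum_geo he (lm_bdd P hh) hz h1).add (hasSum_geo ez_ne (lm_bdd R hh) hz h2))
  rw [el, el, ← smul_mul_assoc, ← smul_mul_assoc, ← add_mul] at this
  exact this.congr_fun fun m => by simp [Bop_apply, smul_sub]

theorem hasFDerivAt_evl {h : ℕ × ℕ → A} (hh : h ∈ Bdd A) {z : ℝ × ℝ} (hz : ‖z‖ < 1) :
    ∃ D : ℝ × ℝ →L[ℝ] A, HasFDerivAt (evl h) D z ∧
      HasSum (fun m => mon z m • dg (fun m => m.1) h m) (z.1 • D (1, 0)) ∧
      HasSum (fun m => mon z m • dg (fun m => m.2) h m) (z.2 • D (0, 1)) := by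
  obtain ⟨C, hC⟩ := id hh
  have h0 : 0 ≤ C := (norm_nonneg _).trans (hC 0)
  obtain ⟨r, hr1, hr2⟩ := exists_between hz
  have hr0 : 0 < r := (norm_nonneg _).trans_lt hr1
  let f' : ℕ × ℕ → ℝ × ℝ → (ℝ × ℝ →L[ℝ] A) := fun m w =>
    ((w.1 ^ m.1 * (m.2 * w.2 ^ (m.2 - 1))) • ContinuousLinearMap.snd ℝ ℝ ℝ +
      (w.2 ^ m.2 * (m.1 * w.1 ^ (m.1 - 1))) • ContinuousLinearMap.fst ℝ ℝ ℝ).smulRight (h m)
  have hd : ∀ m w, HasFDerivAt (fun w => mon w m • h m) (f' m w) w := fun m w => by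
    have h1 := ((hasDerivAt_pow m.1 w.1).comp_hasFDerivAt w (hasFDerivAt_fst (𝕜 := ℝ))).mul
      ((hasDerivAt_pow m.2 w.2).comp_hasFDerivAt w (hasFDerivAt_snd (𝕜 := ℝ)))
    refine (h1.smul_const (h m)).congr_fderiv ?_
    simp only [f', smul_smul, Function.comp]
  have hp : ∀ (i : ℕ) (x : ℝ), |x| ≤ r → |i * x ^ (i - 1)| ≤ r⁻¹ * ((i + 1) * r ^ i) := fun i x hx => by
    rcases i with _ | i
    · simp [hr0.le]
    · rw [abs_mul, abs_pow, Nat.abs_cast, Nat.add_sub_cancel, pow_succ]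
      calc ((i + 1 : ℕ) : ℝ) * |x| ^ i ≤ ((i + 1 : ℕ) + 1) * r ^ i := by gcongr; linarith
        _ = _ := by field_simp
  have hq : ∀ (i : ℕ) (x : ℝ), |x| ≤ r → |x ^ i| ≤ (i + 1) * r ^ i := fun i x hx => by
    rw [abs_pow]
    exact (pow_le_pow_left₀ (abs_nonneg _) hx i).trans
      (le_mul_of_one_le_left (by positivity) (le_add_of_nonneg_left (by positivity)))
  have hb : ∀ m, ∀ w ∈ Metric.ball (0 : ℝ × ℝ) r, ‖f' m w‖ ≤
      (((m.1 : ℝ) + 1) * r ^ m.1) * (((m.2 : ℝ) + 1) * r ^ m.2) * (2 * r⁻¹ * C) := fun m w hw => by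
    rw [mem_ball_zero_iff] at hw
    have h1 : |w.1| ≤ r := (norm_fst_le w).trans hw.le
    have h2 : |w.2| ≤ r := (norm_snd_le w).trans hw.le
    rw [ContinuousLinearMap.norm_smulRight_apply]
    calc _ ≤ (((m.1 + 1) * r ^ m.1 * (r⁻¹ * ((m.2 + 1) * r ^ m.2))) * 1 +
          ((m.2 + 1) * r ^ m.2 * (r⁻¹ * ((m.1 + 1) * r ^ m.1))) * 1) * C := by
          refine mul_le_mul ((norm_add_le _ _).trans (add_le_add ?_ ?_)) (hC m) (norm_nonneg _) (by positivity)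
          · rw [norm_smul, Real.norm_eq_abs, abs_mul]
            exact mul_le_mul (mul_le_mul (hq _ _ h1) (hp _ _ h2) (abs_nonneg _) (by positivity))
              (ContinuousLinearMap.norm_snd_le ℝ ℝ ℝ) (norm_nonneg (ContinuousLinearMap.snd ℝ ℝ ℝ)) (by positivity)
          · rw [norm_smul, Real.norm_eq_abs, abs_mul]
            exact mul_le_mul (mul_le_mul (hq _ _ h2) (hp _ _ h1) (abs_nonneg _) (by positivity))
              (ContinuousLinearMap.norm_fst_le ℝ ℝ ℝ) (norm_nonneg (ContinuousLinearMap.fst ℝ ℝ ℝ)) (by positivity)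
      _ = _ := by ring
  have hs := (summ2 hr0.le hr2).mul_right (2 * r⁻¹ * C)
  have hzr : z ∈ Metric.ball (0 : ℝ × ℝ) r := mem_ball_zero_iff.2 hr1
  have s0 := (Summable.of_norm_bounded hs fun m => hb m z hzr).hasSum
  refine ⟨∑' m, f' m z, hasFDerivAt_tsum_of_isPreconnected hs Metric.isOpen_ball (convex_ball _ _).isPreconnected
    (fun m w _ => hd m w) hb hzr (hasSum_bdd hh hz).summable hzr, ?_, ?_⟩
  · refine (((ContinuousLinearMap.apply ℝ A (1, 0)).hasSum s0).const_smul z.1).congr_fun fun m => ?_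
    simp only [f', mon, dg_apply, smul_smul, ContinuousLinearMap.apply_apply, ContinuousLinearMap.smulRight_apply]
    congr 1
    rcases m with ⟨_ | i, j⟩ <;> simp; ring
  · refine (((ContinuousLinearMap.apply ℝ A (0, 1)).hasSum s0).const_smul z.2).congr_fun fun m => ?_
    simp only [f', mon, dg_apply, smul_smul, ContinuousLinearMap.apply_apply, ContinuousLinearMap.smulRight_apply]
    congr 1
    rcases m with ⟨i, _ | j⟩ <;> simp; ring

/-- the holomorphic part of the flat section normalised at the vertex `(0,0)` -/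
structure Sol (C₁ C₂ P Q R : A) (E : ℝ × ℝ → A) : Prop where
  zero : E 0 = 1
  unit : ∀ z, ‖z‖ < 1 → IsUnit (E z)
  der : ∀ z, ‖z‖ < 1 → ∃ D : ℝ × ℝ →L[ℝ] A, HasFDerivAt E D z ∧
    z.1 • D (1, 0) = C₁ * E z - E z * C₁ - ((z.1 / (1 - z.1)) • P + (z.1 * z.2 / (1 - z.1 * z.2)) • R) * E z ∧
    z.2 • D (0, 1) = C₂ * E z - E z * C₂ - ((z.2 / (1 - z.2)) • Q + (z.1 * z.2 / (1 - z.1 * z.2)) • R) * E z

theorem exists_sol {C₁ C₂ P Q R : A} (h : Rel C₁ C₂ P Q R) (h1 : C₁ ∈ F.J 1) (h2 : C₂ ∈ F.J 1) (hP : P ∈ F.J 1)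
    (hQ : Q ∈ F.J 1) (hR : R ∈ F.J 1) : ∃ E, Sol C₁ C₂ P Q R E := by
  have hδ : (Pi.single 0 1 : ℕ × ℕ → A) ∈ Bdd A := ⟨‖(1 : A)‖, fun m => by
    by_cases hm : m = 0 <;> simp [hm]⟩
  obtain ⟨H, hH, H0, H1, e1, e2⟩ := picard F h h1 h2 hP hQ hR (Bdd A) hδ (Mop_bdd _ _ _ _ _)
  refine ⟨evl H, ?_, fun z hz => isUnit_of_mem F ?_, fun z hz => ?_⟩
  · rw [evl, tsum_eq_single 0 fun m hm => ?_]
    · simp [mon, H0]
    · have : m.1 ≠ 0 ∨ m.2 ≠ 0 := by
        by_contra hc; push Not at hc; exact hm (Prod.ext hc.1 hc.2)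
      rcases this with h | h <;> simp [mon, h]
  · have s1 : HasSum (fun m => mon z m • (Pi.single 0 1 : ℕ × ℕ → A) m) 1 := by
      simpa [mon] using hasSum_single (f := fun m => mon z m • (Pi.single 0 1 : ℕ × ℕ → A) m) 0
        fun m hm => by simp [hm]
    refine mem_of_tendsto' _ ((hasSum_bdd hH hz).sub s1) (Eventually.of_forall fun s => Submodule.sum_mem _
      fun m _ => ?_)
    rw [← smul_sub]; exact Submodule.smul_mem _ _ (H1 m)
  · obtain ⟨D, hD, s1, s2⟩ := hasFDerivAt_evl hH hz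
    have a1 := abs_lt.1 ((norm_fst_le z).trans_lt hz)
    have a2 := abs_lt.1 ((norm_snd_le z).trans_lt hz)
    have n3 : 1 - mon z (1, 1) ≠ 0 := by simp only [mon, pow_one]; nlinarith
    rw [e1] at s1
    rw [e2] at s2
    refine ⟨D, hD, ?_, ?_⟩
    · simpa [mon] using s1.unique (hasSum_Bop C₁ P R ex_ne hH hz (by simp [mon]; linarith) n3)
    · simpa [mon] using s2.unique (hasSum_Bop C₂ Q R ey_ne hH hz (by simp [mon]; linarith) n3)

end Crest.Agent.R10.An
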