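import Crest.Agent.R10.E.An3

/-! # Row 10, block E-an, step 4: the associator `Phi a b`, its properties and the pentagon -/

set_option autoImplicit false
set_option linter.unusedSectionVars false

open Set Filter
open scoped Topology

noncomputable section
namespace Crest.Agent.R10.An

variable {A : Type} [NormedRing A] [NormedAlgebra ℝ A] [FiniteDimensional ℝ A] {N : ℕ} (F : Filt ℝ A N)

attribute [local instance] complete

theorem norm_lt {x y : ℝ} (hx : x ∈ Ico (0 : ℝ) 1) (hy : y ∈ Ico (0 : ℝ) 1) : ‖(x, y)‖ < 1 := by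
  rw [Prod.norm_def, max_lt_iff, Real.norm_of_nonneg hx.1, Real.norm_of_nonneg hy.1]
  exact ⟨hx.2, hy.2⟩

theorem Sol.cont {C₁ C₂ P Q R : A} {E : ℝ × ℝ → A} (h : Sol C₁ C₂ P Q R E) {z : ℝ × ℝ} (hz : ‖z‖ < 1) :
    ContinuousAt E z := (h.der z hz).choose_spec.1.continuousAt

theorem clm_pair (D : ℝ × ℝ →L[ℝ] A) (u v : ℝ) : D (u, v) = u • D (1, 0) + v • D (0, 1) := by
  rw [← map_smul, ← map_smul, ← map_add]; simp

theorem Sol.can_x {C₁ C₂ P Q R : A} {E : ℝ × ℝ → A} (h : Sol C₁ C₂ P Q R E) :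
    Can C₁ P fun t => E (t, 0) * pw t C₁ := by
  refine ⟨fun t ht => ?_, ?_⟩
  · obtain ⟨D, hD, e, -⟩ := h.der (t, 0) (norm_lt (Ioo_subset_Ico_self ht) ⟨le_rfl, one_pos⟩)
    refine ((hD.comp_hasDerivAt t ((hasDerivAt_id t).prodMk (hasDerivAt_const t 0))).mul
      (hasDerivAt_pw (hasDerivAt_id t) ht.1.ne' C₁)).congr_deriv ?_
    have h0 := ht.1.ne'
    have h1 : 1 - t ≠ 0 := (sub_pos.2 ht.2).ne'
    have h2 : t - 1 ≠ 0 := (sub_neg.2 ht.2).ne
    rw [(eq_inv_smul_iff₀ h0).2 e]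
    simp only [om, Function.comp, id, smul_mul_assoc, mul_smul_comm, add_mul, sub_mul, mul_assoc]
    match_scalars <;> field_simp <;> ring
  · simp only [mul_assoc, pw_mul_neg, mul_one]
    have : Tendsto (fun t : ℝ => (t, (0 : ℝ))) (𝓝[>] 0) (𝓝 0) :=
      ((continuous_id.prodMk continuous_const).tendsto 0).mono_left nhdsWithin_le_nhds
    exact h.zero ▸ (h.cont (by simp)).tendsto.comp this

theorem Sol.can_y {C₁ C₂ P Q R : A} {E : ℝ × ℝ → A} (h : Sol C₁ C₂ P Q R E) :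
    Can C₂ Q fun t => E (0, t) * pw t C₂ := by
  refine ⟨fun t ht => ?_, ?_⟩
  · obtain ⟨D, hD, -, e⟩ := h.der (0, t) (norm_lt ⟨le_rfl, one_pos⟩ (Ioo_subset_Ico_self ht))
    refine ((hD.comp_hasDerivAt t ((hasDerivAt_const t 0).prodMk (hasDerivAt_id t))).mul
      (hasDerivAt_pw (hasDerivAt_id t) ht.1.ne' C₂)).congr_deriv ?_
    have h0 := ht.1.ne'
    have h1 : 1 - t ≠ 0 := (sub_pos.2 ht.2).ne'
    have h2 : t - 1 ≠ 0 := (sub_neg.2 ht.2).ne
    rw [(eq_inv_smul_iff₀ h0).2 e]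
    simp only [om, Function.comp, id, smul_mul_assoc, mul_smul_comm, add_mul, sub_mul, mul_assoc]
    match_scalars <;> field_simp <;> ring
  · simp only [mul_assoc, pw_mul_neg, mul_one]
    have : Tendsto (fun t : ℝ => ((0 : ℝ), t)) (𝓝[>] 0) (𝓝 0) :=
      ((continuous_const.prodMk continuous_id).tendsto 0).mono_left nhdsWithin_le_nhds
    exact h.zero ▸ (h.cont (by simp)).tendsto.comp this

theorem Sol.curve {C₁ C₂ P Q R : A} {E : ℝ × ℝ → A} (h : Sol C₁ C₂ P Q R E) (hc : Commute C₁ C₂)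
    {x y : ℝ → ℝ} {x' y' t : ℝ} (hx : HasDerivAt x x' t) (hy : HasDerivAt y y' t) (hx1 : x t ∈ Ioo (0 : ℝ) 1)
    (hy1 : y t ∈ Ioo (0 : ℝ) 1) : HasDerivAt (fun s => E (x s, y s) * pw (x s) C₁ * pw (y s) C₂)
      ((x' • ((x t)⁻¹ • C₁ - (1 - x t)⁻¹ • P - (y t / (1 - x t * y t)) • R) +
        y' • ((y t)⁻¹ • C₂ - (1 - y t)⁻¹ • Q - (x t / (1 - x t * y t)) • R)) *
        (E (x t, y t) * pw (x t) C₁ * pw (y t) C₂)) t := by
  obtain ⟨D, hD, e1, e2⟩ := h.der (x t, y t) (norm_lt (Ioo_subset_Ico_self hx1) (Ioo_subset_Ico_self hy1))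
  have h1 := hx1.1.ne'
  have h2 := hy1.1.ne'
  refine (((HasFDerivAt.comp_hasDerivAt (f := fun s => (x s, y s)) t hD (hx.prodMk hy)).mul
    (hasDerivAt_pw hx h1 C₁)).mul (hasDerivAt_pw hy h2 C₂)).congr_deriv ?_
  rw [clm_pair, (eq_inv_smul_iff₀ h1).2 e1, (eq_inv_smul_iff₀ h2).2 e2]
  simp only [Function.comp, Pi.mul_apply, smul_mul_assoc, mul_smul_comm, add_mul, sub_mul, mul_assoc,
    (comm_pw hc.symm (x t)).symm.left_comm]
  match_scalars <;> field_simp <;> ring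

theorem exists_can {a b : A} (ha : a ∈ F.J 1) (hb : b ∈ F.J 1) : ∃ g, Can a b g := by
  obtain ⟨E, hE⟩ := exists_sol F (C₁ := a) (C₂ := 0) (P := b) (Q := 0) (R := 0)
    ⟨by simp, by simp, by simp, by simp, by simp, by simp⟩ ha (zero_mem _) hb (zero_mem _) (zero_mem _)
  exact ⟨_, hE.can_x⟩

/-- the KZ associator -/
def Phi (a b : A) : A :=
  Ring.inverse (Classical.epsilon (Can b a) (1 / 2)) * Classical.epsilon (Can a b) (1 / 2)

theorem one_sub_mem {t : ℝ} (ht : t ∈ Ioo (0 : ℝ) 1) : 1 - t ∈ Ioo (0 : ℝ) 1 := ⟨by linarith [ht.2], by linarith [ht.1]⟩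

theorem phi_eq {a b : A} (ha : a ∈ F.J 1) (hb : b ∈ F.J 1) {g h : ℝ → A} (hg : Can a b g) (hh : Can b a h) {t : ℝ}
    (ht : t ∈ Ioo (0 : ℝ) 1) : g t = h (1 - t) * Phi a b := by
  obtain ⟨D, hD⟩ := ode_unique F (om_mem F ha hb) hg.der (fun t ht => hh.refl ht) ht
    (hh.isUnit F hb ha (one_sub_mem ht))
  have e := hD _ half_mem
  rw [show (1 : ℝ) - 1 / 2 = 1 / 2 by norm_num] at e
  rw [Phi, (Classical.epsilon_spec ⟨g, hg⟩).unique F hg ha hb half_mem,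
    (Classical.epsilon_spec ⟨h, hh⟩).unique F hh hb ha half_mem, e,
    Ring.inverse_mul_cancel_left _ _ (hh.isUnit F hb ha half_mem), hD t ht]

theorem phi_unique {a b D : A} (ha : a ∈ F.J 1) (hb : b ∈ F.J 1) {g h : ℝ → A} (hg : Can a b g) (hh : Can b a h)
    (e : g (1 / 2) = h (1 - 1 / 2) * D) : Phi a b = D :=
  (hh.isUnit F hb ha (one_sub_mem half_mem)).mul_left_cancel ((phi_eq F ha hb hg hh half_mem).symm.trans e)

theorem map_phi {B : Type} [NormedRing B] [NormedAlgebra ℝ B] [FiniteDimensional ℝ B] (F' : Filt ℝ B N)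
    (φ : A →ₐ[ℝ] B) {a b : A} (ha : a ∈ F.J 1) (hb : b ∈ F.J 1) (ha' : φ a ∈ F'.J 1) (hb' : φ b ∈ F'.J 1) :
    φ (Phi a b) = Phi (φ a) (φ b) := by
  obtain ⟨g, hg⟩ := exists_can F ha hb
  obtain ⟨h, hh⟩ := exists_can F hb ha
  exact (phi_unique F' ha' hb' (hg.map φ) (hh.map φ) (by rw [phi_eq F ha hb hg hh half_mem, map_mul])).symm

theorem comm_phi {a b c : A} (ha : a ∈ F.J 1) (hb : b ∈ F.J 1) (h1 : Commute c a) (h2 : Commute c b) :
    Commute c (Phi a b) := by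
  obtain ⟨g, hg⟩ := exists_can F ha hb
  obtain ⟨h, hh⟩ := exists_can F hb ha
  have e := (hg.comm F ha hb h1 h2 half_mem).eq
  rw [phi_eq F ha hb hg hh half_mem, ← mul_assoc, (hh.comm F hb ha h2 h1 (one_sub_mem half_mem)).eq, mul_assoc,
    mul_assoc] at e
  exact (hh.isUnit F hb ha (one_sub_mem half_mem)).mul_left_cancel e

theorem phi_add {a b a' b' : A} (ha : a ∈ F.J 1) (hb : b ∈ F.J 1) (ha' : a' ∈ F.J 1) (hb' : b' ∈ F.J 1)
    (h1 : Commute a a') (h2 : Commute a b') (h3 : Commute b a') (h4 : Commute b b') :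
    Phi (a + a') (b + b') = Phi a b * Phi a' b' := by
  obtain ⟨g, hg⟩ := exists_can F ha hb
  obtain ⟨h, hh⟩ := exists_can F hb ha
  obtain ⟨g', hg'⟩ := exists_can F ha' hb'
  obtain ⟨h', hh'⟩ := exists_can F hb' ha'
  refine phi_unique F (add_mem ha ha') (add_mem hb hb') (hg.mul F hg' ha hb ha' hb' h1 h2 h3 h4)
    (hh.mul F hh' hb ha hb' ha' h4 h3 h2 h1) ?_
  have hc := hh'.comm F hb' ha' (comm_phi F ha hb h2.symm h4.symm).symm (comm_phi F ha hb h1.symm h3.symm).symm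
    (one_sub_mem half_mem)
  simp only [phi_eq F ha hb hg hh half_mem, phi_eq F ha' hb' hg' hh' half_mem, mul_assoc, hc.left_comm]

theorem phi_left {a : A} (ha : a ∈ F.J 1) : Phi a 0 = 1 :=
  phi_unique F ha (zero_mem _) (can_left a) (can_right a) (by simp)

theorem phi_right {b : A} (hb : b ∈ F.J 1) : Phi 0 b = 1 :=
  phi_unique F (zero_mem _) hb (can_right b) (can_left b) (by simp)

theorem phi_inv {a b : A} (ha : a ∈ F.J 1) (hb : b ∈ F.J 1) : Phi a b * Phi b a = 1 := by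
  obtain ⟨g, hg⟩ := exists_can F ha hb
  obtain ⟨h, hh⟩ := exists_can F hb ha
  have e := phi_eq F hb ha hh hg (one_sub_mem half_mem)
  rw [sub_sub_cancel, phi_eq F ha hb hg hh half_mem, mul_assoc] at e
  exact ((hh.isUnit F hb ha (one_sub_mem half_mem)).mul_left_cancel ((mul_one _).trans e)).symm

/-- the relations between the five residues -/
structure Cyc (T₁ T₂ T₃ T₄ T₅ : A) : Prop where
  m1 : T₁ ∈ F.J 1
  m2 : T₂ ∈ F.J 1
  m3 : T₃ ∈ F.J 1
  m4 : T₄ ∈ F.J 1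
  m5 : T₅ ∈ F.J 1
  c1 : Commute T₁ T₂
  c2 : Commute T₂ T₃
  c3 : Commute T₃ T₄
  c4 : Commute T₄ T₅
  c5 : Commute T₅ T₁
  s : T₁ * T₃ + T₂ * T₄ + T₃ * T₅ + T₄ * T₁ + T₅ * T₂ = T₃ * T₁ + T₄ * T₂ + T₅ * T₃ + T₁ * T₄ + T₂ * T₅

variable {F}

theorem Cyc.rot {T₁ T₂ T₃ T₄ T₅ : A} (h : Cyc F T₁ T₂ T₃ T₄ T₅) : Cyc F T₅ T₁ T₂ T₃ T₄ :=
  ⟨h.m5, h.m1, h.m2, h.m3, h.m4, h.c5, h.c1, h.c2, h.c3, h.c4, by linear_combination (norm := noncomm_ring) h.s⟩

theorem Cyc.sol {T₁ T₂ T₃ T₄ T₅ : A} (h : Cyc F T₁ T₂ T₃ T₄ T₅) : ∃ E, Sol T₁ T₂ T₃ T₅ (T₄ - T₃ - T₅) E :=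
  exists_sol F ⟨h.c1, h.c5.symm, h.c2, by linear_combination (norm := noncomm_ring) h.c5.eq + h.c2.eq - h.s,
    by rw [add_sub_cancel]; exact h.c3.sub_right (Commute.refl _),
    by rw [show T₃ + (T₄ - T₃ - T₅) = T₄ - T₅ by abel]; exact h.c4.symm.sub_right (Commute.refl _)⟩
    h.m1 h.m2 h.m3 h.m5 (sub_mem (sub_mem h.m4 h.m3) h.m5)

theorem Cyc.side {T₁ T₂ T₃ T₄ T₅ : A} (h : Cyc F T₁ T₂ T₃ T₄ T₅) {E E' : ℝ × ℝ → A}
    (hE : Sol T₁ T₂ T₃ T₅ (T₄ - T₃ - T₅) E) (hE' : Sol T₅ T₁ T₂ T₄ (T₃ - T₂ - T₄) E') {p : ℝ}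
    (hp : p ∈ Ioo (0 : ℝ) 1) (hpp : p * p + p = 1) :
    E (p, p) * pw p T₁ * pw p T₂ = E' (p, p) * pw p T₅ * pw p T₁ * Phi T₂ T₅ := by
  let u : ℝ → ℝ := fun x => (1 - p) / (1 - x * p)
  have hd : ∀ x : ℝ, x < 1 → 0 < 1 - x * p := fun x hx => by nlinarith [hp.1, hp.2]
  have hu1 : ∀ x ∈ Ioo (0 : ℝ) 1, u x ∈ Ioo (0 : ℝ) 1 := fun x hx =>
    ⟨div_pos (sub_pos.2 hp.2) (hd x hx.2), (div_lt_one (hd x hx.2)).2 (by nlinarith [hp.1, hx.2])⟩
  have hu : ∀ x : ℝ, x < 1 → HasDerivAt u ((1 - p) * p / (1 - x * p) ^ 2) x := fun x hx =>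
    ((hasDerivAt_const x (1 - p)).div (((hasDerivAt_id x).mul_const p).const_sub 1) (hd x hx).ne').congr_deriv
      (by simp)
  obtain ⟨D, hD⟩ := ode_unique F (ω := fun x => x⁻¹ • T₁ - (1 - x)⁻¹ • T₃ - (p / (1 - x * p)) • (T₄ - T₃ - T₅))
    (g := fun x => E (x, p) * pw x T₁ * pw p T₂) (g' := fun x => E' (u x, x) * pw (u x) T₅ * pw x T₁)
    (fun x => sub_mem (sub_mem (Submodule.smul_mem _ _ h.m1) (Submodule.smul_mem _ _ h.m3))
      (Submodule.smul_mem _ _ (sub_mem (sub_mem h.m4 h.m3) h.m5)))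
    (fun x hx => (hE.curve h.c1 (hasDerivAt_id x) (hasDerivAt_const x p) hx hp).congr_deriv (by simp))
    (fun x hx => (hE'.curve h.c5 (hu x hx.2) (hasDerivAt_id x) (hu1 x hx) hx).congr_deriv (by
      congr 1
      have a0 := hp.1.ne'
      have a1 := hx.1.ne'
      have a2 := (hd x hx.2).ne'
      have a3 := (sub_pos.2 hp.2).ne'
      have a4 := (sub_pos.2 hx.2).ne'
      have a5 : 1 - p * x ≠ 0 := by rwa [mul_comm]
      have e1 : 1 - u x = p * (1 - x) / (1 - x * p) := by simp only [u]; field_simp; ring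
      have e2 : 1 - u x * x = (1 - x) / (1 - x * p) := by simp only [u]; field_simp; ring
      simp only [id]
      rw [e1, e2]
      simp only [u]
      match_scalars <;> field_simp <;> ring)) hp
    (((hE'.unit _ (norm_lt (Ioo_subset_Ico_self (hu1 p hp)) (Ioo_subset_Ico_self hp))).mul
      (isUnit_of_mem F (pw_mem F h.m5 _))).mul (isUnit_of_mem F (pw_mem F h.m1 _)))
  have hp' := Ioo_subset_Ico_self hp
  have hp1 := one_sub_mem hp
  have u0 : u 0 = 1 - p := by simp [u]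
  have t1 : Tendsto (fun x => E' (u x, x) * pw (u x) T₅) (𝓝[>] 0) (𝓝 (E' (1 - p, 0) * pw (1 - p) T₅)) := by
    have c1 : ContinuousAt (fun x => E' (u x, x)) 0 := ContinuousAt.comp (f := fun x => (u x, x))
      (hE'.cont (u0 ▸ norm_lt (Ioo_subset_Ico_self hp1) ⟨le_rfl, one_pos⟩))
      ((hu 0 one_pos).continuousAt.prodMk continuousAt_id)
    have := (c1.mul (hasDerivAt_pw (hu 0 one_pos) (u0 ▸ hp1.1.ne') T₅).continuousAt).tendsto
    simp only [Pi.mul_apply, u0] at this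
    exact this.mono_left nhdsWithin_le_nhds
  have t2 : Tendsto (fun x => E (x, p) * pw p T₂) (𝓝[>] 0) (𝓝 (E (0, p) * pw p T₂)) :=
    ((ContinuousAt.comp (f := fun x : ℝ => (x, p)) (hE.cont (norm_lt ⟨le_rfl, one_pos⟩ hp'))
      (by fun_prop)).tendsto.mul_const _).mono_left nhdsWithin_le_nhds
  have e := phi_eq F h.m2 h.m5 hE.can_y hE'.can_x hp
  have hDΦ : D = Phi T₂ T₅ := conj_lim F h.m1 (tendsto_cancel t1 (hE'.can_x.isUnit F h.m5 h.m2 hp1) (by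
    rw [← e]
    refine t2.congr' (ev01.mono fun x hx => ?_)
    have h1 := congrArg (· * pw x (-T₁)) (hD x hx)
    simp only [mul_assoc] at h1 ⊢
    rwa [(comm_pw (comm_pw h.c1 p).symm x).symm.left_comm, pw_mul_neg, mul_one] at h1))
  have up : u p = p := by
    simp only [u]; rw [div_eq_iff (hd p hp.2).ne']; linear_combination (p - 1) * hpp
  have := hD p hp
  rwa [up, hDΦ] at this

theorem Cyc.pent {T₁ T₂ T₃ T₄ T₅ : A} (h : Cyc F T₁ T₂ T₃ T₄ T₅) :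
    Phi T₃ T₁ * Phi T₄ T₂ * Phi T₅ T₃ * Phi T₁ T₄ * Phi T₂ T₅ = 1 := by
  obtain ⟨p, hp, hpp⟩ : ∃ p ∈ Ioo (0 : ℝ) 1, p * p + p = 1 := by
    have h5 := Real.mul_self_sqrt (show (0 : ℝ) ≤ 5 by norm_num)
    have h0 := Real.sqrt_nonneg 5
    exact ⟨(√5 - 1) / 2, ⟨by nlinarith, by nlinarith⟩, by nlinarith⟩
  obtain ⟨E₀, h₀⟩ := h.sol
  obtain ⟨E₁, h₁⟩ := h.rot.sol
  obtain ⟨E₂, h₂⟩ := h.rot.rot.sol
  obtain ⟨E₃, h₃⟩ := h.rot.rot.rot.sol
  obtain ⟨E₄, h₄⟩ := h.rot.rot.rot.rot.sol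
  have e := h.side h₀ h₁ hp hpp
  rw [h.rot.side h₁ h₂ hp hpp, h.rot.rot.side h₂ h₃ hp hpp, h.rot.rot.rot.side h₃ h₄ hp hpp,
    h.rot.rot.rot.rot.side h₄ h₀ hp hpp] at e
  have hp' := Ioo_subset_Ico_self hp
  refine (((h₀.unit _ (norm_lt hp' hp')).mul (isUnit_of_mem F (pw_mem F h.m1 p))).mul
    (isUnit_of_mem F (pw_mem F h.m2 p))).mul_left_cancel ?_
  rw [mul_one]
  simpa only [mul_assoc] using e.symm

variable (F)

theorem phi_pent {a b c d e g : A} (ha : a ∈ F.J 1) (hb : b ∈ F.J 1) (hd : d ∈ F.J 1) (he : e ∈ F.J 1)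
    (hg : g ∈ F.J 1) (h : Br a b c d e g) :
    Phi a (d + e) * Phi (b + d) g = Phi d g * Phi (a + b) (e + g) * Phi a d := by
  have m1 := add_mem (add_mem ha hb) hd
  have m4 := add_mem (add_mem hd he) hg
  have hc : Cyc F (a + b + d) a g (d + e + g) d := ⟨m1, ha, hg, m4, hd, h.a3.symm, h.ag, h.g0, h.d0.symm, h.d3,
    by linear_combination (norm := noncomm_ring) -h.d0.eq - h.be.eq + h.ag.eq + h.d3.eq⟩
  have z := Commute.zero_right (G₀ := A)
  have e1 : Phi a (d + e + g) = Phi a (d + e) := by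
    have := phi_add F ha (add_mem hd he) (zero_mem _) hg (z _) h.ag (z _)
      (by simpa using (h.g0.sub_right (Commute.refl g)).symm)
    rwa [add_zero, phi_right F hg, mul_one] at this
  have e2 : Phi (a + b + d) g = Phi (b + d) g := by
    have := phi_add F ha (zero_mem _) (add_mem hb hd) hg
      (by simpa [add_assoc] using h.a3.sub_right (Commute.refl a)) h.ag (z _).symm (z _).symm
    rwa [zero_add, phi_left F ha, one_mul, ← add_assoc] at this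
  have e3 : Phi (a + b + d) (d + e + g) = Phi (a + b) (e + g) := by
    have c1 : Commute (a + b) d := by simpa using (h.d3.sub_right (Commute.refl d)).symm
    have c2 : Commute (e + g) d := by simpa [add_assoc] using (h.d0.sub_right (Commute.refl d)).symm
    have h1 := phi_add F hd (zero_mem _) (zero_mem _) hd (z _) (Commute.refl d) (z _) (z _).symm
    rw [add_zero, zero_add, phi_left F hd, phi_right F hd, mul_one] at h1
    have := phi_add F (add_mem ha hb) (add_mem he hg) hd hd c1 c1 c2 c2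
    rwa [h1, mul_one, add_comm (e + g), ← add_assoc d] at this
  have p := congrArg (Phi a (d + e + g) * Phi (a + b + d) g * ·) hc.pent
  simp only [mul_one, mul_assoc] at p
  rw [← mul_assoc (Phi (a + b + d) g), phi_inv F m1 hg, one_mul, ← mul_assoc (Phi a (d + e + g)), phi_inv F ha m4,
    one_mul, e1, e2, e3] at p
  rw [← p, mul_assoc]

end Crest.Agent.R10.An
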