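import Crest.Agent.R10.E.An4

/-! # Row 10, block E-an, step 5: polylogarithms and the depth-one coefficients of `Phi` -/

set_option autoImplicit false
set_option linter.unusedSectionVars false

open Set Filter
open scoped Topology

noncomputable section
namespace Crest.Agent.R10.An

/-- the polylogarithm -/
def Li (n : ℕ) (t : ℝ) : ℝ := ∑' k : ℕ, t ^ (k + 1) / ((k : ℝ) + 1) ^ n

theorem Li_at_zero (n : ℕ) : Li n 0 = 0 := by simp [Li]

theorem hasDerivAt_Li' (n : ℕ) {t : ℝ} (ht : |t| < 1) :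
    HasDerivAt (Li (n + 1)) (∑' k : ℕ, t ^ k / ((k : ℝ) + 1) ^ n) t := by
  obtain ⟨r, h1, h2⟩ := exists_between ht
  have h0 : 0 < r := (abs_nonneg t).trans_lt h1
  refine hasDerivAt_tsum_of_isPreconnected (u := fun k => r ^ k) (t := Ioo (-r) r) (y₀ := 0)
    (g := fun (k : ℕ) (t : ℝ) => t ^ (k + 1) / ((k : ℝ) + 1) ^ (n + 1))
    (g' := fun (k : ℕ) (t : ℝ) => t ^ k / ((k : ℝ) + 1) ^ n)
    (summable_geometric_of_lt_one h0.le h2) isOpen_Ioo isPreconnected_Ioo (fun k y _ => ?_) (fun k y hy => ?_)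
    ⟨by linarith, h0⟩ (by simp) (abs_lt.1 h1)
  · refine ((hasDerivAt_pow (k + 1) y).div_const _).congr_deriv ?_
    push_cast
    field_simp
    simp [pow_succ]
    ring
  · rw [norm_div, norm_pow, norm_pow, Real.norm_of_nonneg (r := (k : ℝ) + 1) (by positivity)]
    refine (div_le_self (by positivity) (one_le_pow₀ (by simp))).trans ?_
    exact pow_le_pow_left₀ (norm_nonneg _) (abs_lt.2 hy).le k

theorem hasDerivAt_Li (n : ℕ) {t : ℝ} (ht : t ∈ Ioo (0 : ℝ) 1) : HasDerivAt (Li (n + 1)) (t⁻¹ * Li n t) t := by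
  refine (hasDerivAt_Li' n (abs_lt.2 ⟨by linarith [ht.1], ht.2⟩)).congr_deriv ?_
  rw [Li, ← tsum_mul_left]
  refine tsum_congr fun k => ?_
  have := ht.1.ne'
  rw [pow_succ]
  field_simp

theorem Li_zero {t : ℝ} (ht : t ∈ Ioo (0 : ℝ) 1) : Li 0 t = t * (1 - t)⁻¹ := by
  rw [Li, ← tsum_geometric_of_lt_one ht.1.le ht.2, ← tsum_mul_left]
  exact tsum_congr fun k => by simp [pow_succ']

theorem Li_one {t : ℝ} (ht : t ∈ Ioo (0 : ℝ) 1) : Li 1 t = -Real.log (1 - t) := by
  rw [Li, ← (Real.hasSum_pow_div_log_of_abs_lt_one (abs_lt.2 ⟨by linarith [ht.1], ht.2⟩)).tsum_eq]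
  simp

theorem summable_sq (n : ℕ) : Summable fun k : ℕ => 1 / ((k : ℝ) + 1) ^ (n + 2) := by
  simpa using (summable_nat_add_iff 1).2 (Real.summable_one_div_nat_pow.2 (by omega : 1 < n + 2))

theorem Li_pos (n : ℕ) : 0 < Li (n + 2) 1 := by
  simp only [Li, one_pow]
  exact (summable_sq n).tsum_pos (fun k => by positivity) 0 (by positivity)

theorem tendsto_Li_one (n : ℕ) : Tendsto (fun t => Li (n + 2) (1 - t)) (𝓝[>] 0) (𝓝 (Li (n + 2) 1)) := by
  have h : ContinuousOn (Li (n + 2)) (Icc 0 1) := continuousOn_tsum (fun k => by fun_prop) (summable_sq n)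
    fun k y hy => by
      rw [Real.norm_of_nonneg (by have := hy.1; positivity)]
      exact div_le_div_of_nonneg_right (pow_le_one₀ hy.1 hy.2) (by positivity)
  refine (h 1 ⟨zero_le_one, le_rfl⟩).tendsto.comp (tendsto_nhdsWithin_iff.2 ⟨?_, ev01.mono fun t ht =>
    Ioo_subset_Icc_self (one_sub_mem ht)⟩)
  simpa using (tendsto_id.const_sub 1).mono_left (nhdsWithin_le_nhds (a := (0 : ℝ)) (s := Ioi 0))

theorem tendsto_Li_zero (n : ℕ) : Tendsto (Li (n + 1)) (𝓝[>] 0) (𝓝 0) := by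
  have := (hasDerivAt_Li' n (t := 0) (by simp)).continuousAt.tendsto.mono_left (nhdsWithin_le_nhds (s := Ioi 0))
  rwa [Li_at_zero] at this

variable {A : Type} [NormedRing A] [NormedAlgebra ℝ A] [FiniteDimensional ℝ A] {N : ℕ} (F : Filt ℝ A N)

attribute [local instance] complete

theorem mul_pow_mul {a b : A} (hba : b * a = 0) (hbb : b * b = 0) (n : ℕ) : b * (a ^ n * b) = 0 := by
  cases n with
  | zero => simpa using hbb
  | succ n => rw [pow_succ', ← mul_assoc, ← mul_assoc, hba, zero_mul, zero_mul]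

theorem can_depth {a b : A} (ha : a ∈ F.J 1) (hba : b * a = 0) (hbb : b * b = 0) :
    Can a b fun t => pw t a - ∑ n ∈ Finset.range (N + 1), Li (n + 1) t • (a ^ n * b) := by
  refine ⟨fun t ht => ?_, ?_⟩
  · refine ((hasDerivAt_pw (hasDerivAt_id t) ht.1.ne' a).sub
      (HasDerivAt.fun_sum fun n _ => (hasDerivAt_Li n ht).smul_const (a ^ n * b))).congr_deriv ?_
    have h0 := ht.1.ne'
    have e : (t⁻¹ * Li 0 t) = -(t - 1)⁻¹ := by rw [Li_zero ht, inv_mul_cancel_left₀ h0, ← inv_neg, neg_sub]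
    rw [Finset.sum_range_succ', e, om, add_mul, mul_sub, mul_sub, Finset.mul_sum, Finset.mul_sum,
      Finset.sum_range_succ]
    simp only [smul_mul_assoc, mul_smul_comm, mul_pw_of_zero hba, mul_pow_mul hba hbb, smul_zero,
      Finset.sum_const_zero, ← mul_assoc a, ← pow_succ', eq_zero_of_mem F (pow_mem' F ha _), zero_mul, id, one_div,
      pow_zero, one_mul, mul_smul, smul_comm (Li _ t) t⁻¹]
    module
  · have : Tendsto (fun t => 1 - ∑ n ∈ Finset.range (N + 1), Li (n + 1) t • (a ^ n * b)) (𝓝[>] 0) (𝓝 (1 : A)) := by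
      simpa using (tendsto_finsetSum (Finset.range (N + 1)) fun n _ =>
        (tendsto_Li_zero n).smul_const (a ^ n * b)).const_sub 1
    refine this.congr fun t => ?_
    simp only [sub_mul, pw_mul_neg, Finset.sum_mul, smul_mul_assoc, mul_assoc,
      mul_pw_of_zero (b := b) (a := -a) (by rw [mul_neg, hba, neg_zero])]

theorem phi_depth {a b : A} (ha : a ∈ F.J 1) (hb : b ∈ F.J 1) (hba : b * a = 0) (hbb : b * b = 0) :
    Phi a b = 1 - ∑ n ∈ Finset.range N, Li (n + 2) 1 • (a ^ (n + 1) * b) := by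
  obtain ⟨Z, hZ⟩ : ∃ Z, Z = ∑ n ∈ Finset.range N, Li (n + 2) 1 • (a ^ (n + 1) * b) := ⟨_, rfl⟩
  have hg := can_depth F ha hba hbb
  have bZ : b * Z = 0 := by simp only [hZ, Finset.mul_sum, mul_smul_comm, mul_pow_mul hba hbb, smul_zero,
    Finset.sum_const_zero]
  have Zb : Z * b = 0 := by simp only [hZ, Finset.sum_mul, smul_mul_assoc, mul_assoc, hbb, mul_zero, smul_zero,
    Finset.sum_const_zero]
  have ZZ : Z * Z = 0 := by
    nth_rw 1 [hZ]
    simp only [Finset.sum_mul, smul_mul_assoc, mul_assoc, bZ, mul_zero, smul_zero, Finset.sum_const_zero]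
  have hh : Can b a fun t => (pw (1 - t) a - ∑ n ∈ Finset.range (N + 1), Li (n + 1) (1 - t) • (a ^ n * b)) *
      (1 + Z) := by
    refine ⟨fun t ht => ((hg.refl ht).mul_const _).congr_deriv (mul_assoc _ _ _), ?_⟩
    have d := hasDerivAt_pw_one_sub a one_pos
    have t1 : Tendsto (fun t => pw (1 - t) a) (𝓝[>] 0) (𝓝 1) := by
      simpa using d.continuousAt.tendsto.mono_left (nhdsWithin_le_nhds (s := Ioi 0))
    have t2 : Tendsto (fun t : ℝ => t * Real.log t) (𝓝[>] 0) (𝓝 0) := by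
      simpa using (Real.continuous_mul_log.tendsto 0).mono_left (nhdsWithin_le_nhds (s := Ioi 0))
    have t3 := ((t1.mul_const (1 + Z)).sub ((t2.smul d.tendsto_slope_zero_right).mul_const b)).sub
      (tendsto_finsetSum (Finset.range N) fun n _ => (tendsto_Li_one n).smul_const (a ^ (n + 1) * b))
    rw [← hZ, one_mul, zero_smul, zero_mul, sub_zero (1 + Z), add_sub_cancel_right] at t3
    refine t3.congr' (ev01.mono fun t ht => ?_)
    have h0 := ht.1.ne'
    have e : (1 + Z) * pw t (-b) = 1 + Z - Real.log t • b := by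
      rw [pw_of_sq (by simpa using hbb), mul_add, mul_smul_comm, mul_neg, add_mul, add_mul, Zb]; simp [sub_eq_add_neg]
    have e2 : b * (1 + Z - Real.log t • b) = b := by
      rw [mul_sub, mul_add, bZ, mul_smul_comm, hbb]; simp
    simp only
    rw [mul_assoc _ (1 + Z), e, sub_mul, Finset.sum_mul]
    simp only [smul_mul_assoc, mul_assoc, e2]
    rw [Finset.sum_range_succ', zero_add, Li_one (one_sub_mem ht), sub_sub_cancel, smul_smul, mul_comm t,
      mul_inv_cancel_right₀ h0]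
    simp only [zero_add, sub_zero, pw_one, pow_zero, one_mul, mul_sub, sub_mul, mul_smul_comm]
    module
  rw [← hZ]
  refine phi_unique F ha hb hg hh ?_
  simp only [sub_sub_cancel, mul_assoc]
  rw [show (1 + Z) * (1 - Z) = 1 by rw [mul_sub, mul_one, add_mul, one_mul, ZZ]; simp, mul_one]

end Crest.Agent.R10.An
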